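import Vale.Agent.P065.H649.CoarseFr

/-!
# P065: the flag marginals of the auxiliary laws have polynomial density (helper649)
-/

set_option autoImplicit false

open Finset Real

noncomputable section

namespace Vale.Agent.P065.H649

open Vale.Agent.P065.UB Vale.Agent.P065.Ent Vale.Agent.P065.H700 Vale.Agent.P065.H154
  Vale.Agent.P065.H725

variable {Ω : Type*} [Fintype Ω] {F : Fr Ω} {ln : Ω → Pt} {p : Prm} {Lab : Type*} {lam : Ω → Lab}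
  {μ : Ω → ℝ} {τ : ℝ} {f : p.Col → (ℕ × Lab) × ℤ × ℤ → ℝ}
  {f0 : ∀ k r, 0 ≤ f k r} {f1 : ∀ k r, f k r ≤ 1}

/-- a law which is supported on active pairs and at most `μ / J` has flag density at most
`N₁ / J₀` -/
theorem dens_of_active (hμ : IsProb μ) (hτ : 0 < τ) (hτ1 : τ < 1) {E : ℝ} (hE : 0 ≤ E)
    (hPP : 0 < p.PP) {q : p.Col × Ω → ℝ} (hq0 : ∀ t, 0 ≤ q t)
    (hact : ∀ t, 0 < q t → Act μ ln p τ E t.1 t.2) {J J₀ : ℝ} (hJ₀ : 0 < J₀)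
    (hJ : p.nT * J₀ ≤ J) (hle : ∀ t, q t ≤ μ t.2 / J)
    {N₁ : ℕ} (hN₁ : 4 * 2 ^ p.PP * (p.PP * (E / τ + 1)) ≤ N₁) (ω : Ω) :
    ∑ c, q (c, ω) ≤ N₁ / J₀ * μ ω := by
  classical
  have hnT : (0 : ℝ) < p.nT := Nat.cast_pos.2 p.nT_pos
  have hJpos : 0 < J := (mul_pos hnT hJ₀).trans_le hJ
  have h1 : ∑ c, q (c, ω) = ∑ c ∈ univ.filter (fun c => 0 < q (c, ω)), q (c, ω) := by
    rw [sum_filter]
    refine sum_congr rfl fun c _ => ?_
    split_ifs with h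
    · rfl
    · exact le_antisymm (not_lt.1 h) (hq0 _)
  have h2 := card_active hμ hτ hτ1 hE hPP hact hN₁ ω (univ.filter (fun c => 0 < q (c, ω)))
    (fun c hc => ⟨ω, rfl, (mem_filter.1 hc).2⟩)
  have h3 : (#(univ.filter (fun c => 0 < q (c, ω))) : ℝ) ≤ p.nT * N₁ := by exact_mod_cast h2
  rw [h1]
  have hμ0 := hμ.nonneg ω
  calc ∑ c ∈ univ.filter (fun c => 0 < q (c, ω)), q (c, ω)
      ≤ ∑ _c ∈ univ.filter (fun c => 0 < q (c, ω)), μ ω / J :=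
        sum_le_sum fun c _ => hle (c, ω)
    _ = #(univ.filter (fun c => 0 < q (c, ω))) * (μ ω / J) := by rw [sum_const, nsmul_eq_mul]
    _ ≤ (p.nT * N₁) * (μ ω / J) := mul_le_mul_of_nonneg_right h3 (div_nonneg hμ0 hJpos.le)
    _ ≤ (p.nT * N₁) * (μ ω / (p.nT * J₀)) := by
        refine mul_le_mul_of_nonneg_left ?_ (by positivity)
        exact div_le_div_of_nonneg_left hμ0 (by positivity) hJ
    _ = N₁ / J₀ * μ ω := by
        field_simp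

/-- **the flag marginal of `Qs`** -/
theorem dens_Qs (hμ : IsProb μ) (hτ : 0 < τ) (hτ1 : τ < 1) {E : ℝ} (hE : 0 ≤ E)
    (hPP : 0 < p.PP)
    (hrel : ∀ c ω, 0 < (cols F ln p lam f f0 f1).wt μ c (rho F ln p lam c ω) →
      exp (-E) ≤ Pr μ (fun ω => Prm.S c.1 (ln ω)) (Prm.S c.1 (ln ω)))
    (s : p.Col → (ℕ × Lab) × ℤ × ℤ → Bool) {J₀ : ℝ} (hJ₀ : 0 < J₀)
    (hJ : p.nT * J₀ ≤
      (cols F ln p lam (fc μ ln p τ f) (fc_nonneg f0) (fc_le_one f0 f1)).J μ)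
    {N₁ : ℕ} (hN₁ : 4 * 2 ^ p.PP * (p.PP * (E / τ + 1)) ≤ N₁) (ω : Ω) :
    ∑ c, (cols F ln p lam (fc μ ln p τ f) (fc_nonneg f0) (fc_le_one f0 f1)).Qs μ s (c, ω) ≤
      N₁ / J₀ * μ ω :=
  dens_of_active hμ hτ hτ1 hE hPP (fun t => Cols.Qs_nonneg hμ s t)
    (fun _ ht => act_of_Qs_pos hμ hrel ht) hJ₀ hJ (fun t => Cols.Qs_le hμ s t) hN₁ ω

/-- **the flag marginal of `Q`** -/
theorem dens_Q (hμ : IsProb μ) (hτ : 0 < τ) (hτ1 : τ < 1) {E : ℝ} (hE : 0 ≤ E)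
    (hPP : 0 < p.PP)
    (hrel : ∀ c ω, 0 < (cols F ln p lam f f0 f1).wt μ c (rho F ln p lam c ω) →
      exp (-E) ≤ Pr μ (fun ω => Prm.S c.1 (ln ω)) (Prm.S c.1 (ln ω)))
    {J₀ : ℝ} (hJ₀ : 0 < J₀)
    (hJ : p.nT * J₀ ≤
      (cols F ln p lam (fc μ ln p τ f) (fc_nonneg f0) (fc_le_one f0 f1)).J μ)
    {N₁ : ℕ} (hN₁ : 4 * 2 ^ p.PP * (p.PP * (E / τ + 1)) ≤ N₁) (ω : Ω) :
    ∑ c, (cols F ln p lam (fc μ ln p τ f) (fc_nonneg f0) (fc_le_one f0 f1)).Q μ (c, ω) ≤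
      N₁ / J₀ * μ ω := by
  have hnT : (0 : ℝ) < p.nT := Nat.cast_pos.2 p.nT_pos
  have hJpos := (mul_pos hnT hJ₀).trans_le hJ
  refine dens_of_active hμ hτ hτ1 hE hPP (fun t => Cols.Q_nonneg hμ t)
    (fun _ ht => act_of_Q_pos hμ hrel ht) hJ₀ hJ (fun t => ?_) hN₁ ω
  refine (Cols.Q_le hμ t).trans ?_
  refine div_le_div_of_nonneg_left (hμ.nonneg _) hJpos ?_
  linarith

/-- the probability of a flag under the marginal -/
lemma Pr_snd {κ : Type*} [Fintype κ] (q : κ × Ω → ℝ) (ω : Ω) :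
    Pr q Prod.snd ω = ∑ c, q (c, ω) := by
  classical
  unfold Pr
  rw [Fintype.sum_prod_type]
  refine sum_congr rfl fun c _ => ?_
  rw [sum_eq_single ω]
  · rw [if_pos rfl]
  · intro ω' _ h
    rw [if_neg h]
  · intro h
    exact absurd (mem_univ _) h

/-- the event form: probabilities of events of flags -/
lemma PE_snd_le {κ : Type*} [Fintype κ] {q : κ × Ω → ℝ} {d : ℝ}
    (hd : ∀ ω, ∑ c, q (c, ω) ≤ d * μ ω) (A : Ω → Prop) [DecidablePred A] :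
    ∑ t : κ × Ω, (if A t.2 then q t else 0) ≤ d * ∑ ω, (if A ω then μ ω else 0) := by
  rw [Fintype.sum_prod_type, sum_comm, mul_sum]
  refine sum_le_sum fun ω _ => ?_
  by_cases h : A ω
  · simp only [h, if_true]
    exact hd ω
  · simp [h]

end Vale.Agent.P065.H649
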