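import Vale.Agent.P065.H154.FrameGuard

/-!
# P065, near rows on the frame (helper649)

279's `near_pos` and `mid_content` for a law on columns and flags which depends on the offset modulo
the fine unit only (`LPer`), for the boxes `Rt` of the frame.  The offsets `3 i + r`, `i < 2 ^ M'`,
with fixed `r` and the integer heights `⌊(b + r) / 3⌋` give 279's setting.

* `near_row`  : own side surprises of the halves of the time cells, on the levels where the cell of
  the flag has a position in `Pos` : factor `#Pos * 2 ^ (-g)`;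
* `near_deep` : the same for the levels where the flag is not deep : factor `4 * 2 ^ (-g)`;
* `mid_row`   : surprises of the middle part of the row, deep flags : factor `2 g * 2 ^ (-g)`.
-/

set_option autoImplicit false

open Finset Real

noncomputable section

namespace Vale.Agent.P065.H649

open Vale.Agent.P065.UB Vale.Agent.P065.Ent Vale.Agent.P065.H154

/-! ### offsets -/

/-- the offset `3 i + r` -/
def off (p : Prm) (r i : ℕ) : Fin p.nT := Fin.ofNat p.nT (3 * i + r)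

lemma off_val {p : Prm} {r i : ℕ} (hr : r < 3) (hi : i < 2 ^ (p.K + p.M + p.Γ)) :
    (off p r i : ℕ) = 3 * i + r := by
  unfold off
  rw [Fin.val_ofNat]
  apply Nat.mod_eq_of_lt
  unfold Prm.nT
  omega

lemma sum_off {p : Prm} (f : Fin p.nT → ℝ) :
    ∑ i, f i = ∑ r ∈ range 3, ∑ i ∈ range (2 ^ (p.K + p.M + p.Γ)), f (off p r i) := by
  have h1 : ∑ i : Fin p.nT, f i = ∑ i ∈ range p.nT, f (Fin.ofNat p.nT i) := by
    rw [Finset.sum_range]
    refine sum_congr rfl fun i _ => ?_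
    congr 1
    apply Fin.ext
    rw [Fin.val_ofNat, Nat.mod_eq_of_lt i.2]
  have h2 : p.nT = 2 ^ (p.K + p.M + p.Γ) * 3 := by
    unfold Prm.nT
    rw [Nat.mul_comm]
  have h3 : ∑ i ∈ range p.nT, f (Fin.ofNat p.nT i) =
      ∑ i ∈ range (2 ^ (p.K + p.M + p.Γ) * 3), f (Fin.ofNat p.nT i) := by rw [← h2]
  rw [h1, h3, sum_range_mul', sum_comm]
  refine sum_congr rfl fun r _ => sum_congr rfl fun i _ => ?_
  unfold off
  rw [Nat.mul_comm i 3]

section nr

variable {Ω : Type*} (F : Fr Ω) (ln : Ω → Pt) (p : Prm)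

/-- the integer height for the offsets `3 i + r` -/
def bz (k : p.Kap) (r : ℕ) (ω : Ω) : ℤ := ⌊(Prm.b k (F.P.x ω) (ln ω) + r) / ((3 : ℕ) : ℝ)⌋

/-- slope cell and time cell -/
def Xs (u : ℝ) (k : p.Kap) (t : ℕ) (ω : Ω) : ℤ × ℤ := (Prm.S k (ln ω), F.D u t ω)

/-- position of the cell of guard `γ` in the row of guard `γ + g` -/
def posn (γ g t : ℕ) (z : p.Col × Ω) : ℤ := Prm.N γ t z.1 (F.P.x z.2) (ln z.2) % 2 ^ g

variable {F ln p}

lemma posn_nonneg (γ g t : ℕ) (z : p.Col × Ω) : 0 ≤ posn F ln p γ g t z :=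
  Int.emod_nonneg _ (by positivity)

lemma posn_lt (γ g t : ℕ) (z : p.Col × Ω) : posn F ln p γ g t z < 2 ^ g :=
  Int.emod_lt_of_pos _ (by positivity)

lemma N_cl (k : p.Kap) {r i γ t : ℕ} (hr : r < 3) (hi : i < 2 ^ (p.K + p.M + p.Γ))
    (ht : t ≤ Prm.ex k + γ) (ω : Ω) :
    Prm.N γ t (k, off p r i) (F.P.x ω) (ln ω) =
      H279.cl (bz F ln p k r) (Prm.ex k + γ - t) i ω := by
  rw [Prm.N_eq (k, off p r i) (by simpa using ht)]
  unfold H279.cl bz
  have e1 : ((off p r i : ℕ) : ℝ) = 3 * (i : ℝ) + r := by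
    rw [off_val hr hi]
    push_cast
    ring
  simp only
  rw [e1]
  have e2 : (Prm.b k (F.P.x ω) (ln ω) + (3 * (i : ℝ) + r)) /
      (((3 : ℕ) : ℝ) * 2 ^ (Prm.ex k + γ - t)) =
      ((Prm.b k (F.P.x ω) (ln ω) + r) / ((3 : ℕ) : ℝ) + (i : ℝ)) /
        ((2 ^ (Prm.ex k + γ - t) : ℕ) : ℝ) := by
    push_cast
    have h4 : (0 : ℝ) < 2 ^ (Prm.ex k + γ - t) := by positivity
    field_simp
    ring
  rw [e2, Int.floor_div_natCast, Int.floor_add_natCast]
  push_cast
  rfl

lemma Nf_cell {u : ℝ} {γ t : ℕ} (c : p.Col) {y ω : Ω} (ht : t < F.T' y)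
    (h : F.D u t ω = F.D u t y) :
    Nf F ln p γ t c ω = Prm.N γ t c (F.P.x ω) (ln ω) := by
  unfold Nf
  rcases F.T'_cases h with ⟨-, h2⟩ | ⟨h2, -⟩
  · rw [min_eq_left (by omega)]
  · rw [min_eq_left (by omega)]

variable [Fintype Ω]

lemma Pr_one {α β : Type*} (q : p.Col × Ω → ℝ) (A : p.Col × Ω → α) (B : Ω → β) (c : p.Col) (y : Ω)
    (h : ∀ c' ω, A (c', ω) = A (c, y) ↔ c' = c ∧ B ω = B y) :
    Pr q A (A (c, y)) = Pr (fun ω => q (c, ω)) B (B y) := by
  classical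
  unfold Pr
  rw [Fintype.sum_prod_type, sum_eq_single c]
  · refine sum_congr rfl fun ω _ => ?_
    by_cases h1 : B ω = B y
    · rw [if_pos ((h c ω).2 ⟨rfl, h1⟩), if_pos h1]
    · rw [if_neg fun h2 => h1 ((h c ω).1 h2).2, if_neg h1]
  · intro c' _ hc
    exact sum_eq_zero fun ω _ => if_neg fun h2 => hc ((h c' ω).1 h2).1
  · intro h1
    exact absurd (mem_univ c) h1

lemma ms_one (q : p.Col × Ω → ℝ) (A : p.Col × Ω → Prop) (B : Ω → Prop) (c : p.Col)
    (h : ∀ c' ω, A (c', ω) ↔ c' = c ∧ B ω) :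
    H279.ms q A = H279.ms (fun ω => q (c, ω)) B := by
  classical
  unfold H279.ms
  rw [Fintype.sum_prod_type, sum_eq_single c]
  · refine sum_congr rfl fun ω _ => ?_
    by_cases h1 : B ω
    · rw [if_pos ((h c ω).2 ⟨rfl, h1⟩), if_pos h1]
    · rw [if_neg fun h2 => h1 ((h c ω).1 h2).2, if_neg h1]
  · intro c' _ hc
    exact sum_eq_zero fun ω _ => if_neg fun h2 => hc ((h c' ω).1 h2).1
  · intro h1
    exact absurd (mem_univ c) h1

/-- the box of a flag is a row of 279 -/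
lemma Pr_Rt_cl (q : p.Col × Ω → ℝ) (u : ℝ) (k : p.Kap) {r i γ t : ℕ} (hr : r < 3)
    (hi : i < 2 ^ (p.K + p.M + p.Γ)) {y : Ω} (ht : t < F.T' y) (hex : F.T' y ≤ Prm.ex k) :
    Pr q (Rt F ln p u γ t) (Rt F ln p u γ t ((k, off p r i), y)) =
      Pr (fun ω => q ((k, off p r i), ω))
        (fun ω => (Xs F ln p u k t ω, H279.cl (bz F ln p k r) (Prm.ex k + γ - t) i ω))
        (Xs F ln p u k t y, H279.cl (bz F ln p k r) (Prm.ex k + γ - t) i y) := by
  refine Pr_one q (Rt F ln p u γ t) (fun ω => (Xs F ln p u k t ω,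
    H279.cl (bz F ln p k r) (Prm.ex k + γ - t) i ω)) (k, off p r i) y ?_
  intro c' ω
  unfold Rt Xs
  simp only [Prod.mk.injEq]
  constructor
  · rintro ⟨h1, h2, h3, h4⟩
    subst h1
    rw [Nf_cell _ ht h3, Nf_cell (u := u) (y := y) _ ht rfl, N_cl k hr hi (by omega),
      N_cl k hr hi (by omega)] at h4
    exact ⟨rfl, ⟨h2, h3⟩, h4⟩
  · rintro ⟨h1, ⟨h2, h3⟩, h4⟩
    subst h1
    refine ⟨rfl, h2, h3, ?_⟩
    rw [Nf_cell _ ht h3, Nf_cell (u := u) (y := y) _ ht rfl, N_cl k hr hi (by omega),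
      N_cl k hr hi (by omega)]
    exact h4

/-- the half of the time cell in the box of a flag -/
lemma Pr_DRt_cl (q : p.Col × Ω → ℝ) (u : ℝ) (k : p.Kap) {r i γ t : ℕ} (hr : r < 3)
    (hi : i < 2 ^ (p.K + p.M + p.Γ)) {y : Ω} (ht : t < F.T' y) (hex : F.T' y ≤ Prm.ex k) :
    Pr q (fun z => (F.D u (t + 1) z.2, Rt F ln p u γ t z))
        (F.D u (t + 1) y, Rt F ln p u γ t ((k, off p r i), y)) =
      Pr (fun ω => q ((k, off p r i), ω))
        (fun ω => (Xs F ln p u k (t + 1) ω, H279.cl (bz F ln p k r) (Prm.ex k + γ - t) i ω))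
        (Xs F ln p u k (t + 1) y, H279.cl (bz F ln p k r) (Prm.ex k + γ - t) i y) := by
  refine Pr_one q (fun z => (F.D u (t + 1) z.2, Rt F ln p u γ t z))
    (fun ω => (Xs F ln p u k (t + 1) ω,
    H279.cl (bz F ln p k r) (Prm.ex k + γ - t) i ω)) (k, off p r i) y ?_
  intro c' ω
  unfold Rt Xs
  simp only [Prod.mk.injEq]
  constructor
  · rintro ⟨h0, h1, h2, h3, h4⟩
    subst h1
    rw [Nf_cell _ ht h3, Nf_cell (u := u) (y := y) _ ht rfl, N_cl k hr hi (by omega),
      N_cl k hr hi (by omega)] at h4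
    exact ⟨rfl, ⟨h2, h0⟩, h4⟩
  · rintro ⟨h1, ⟨h2, h3⟩, h4⟩
    subst h1
    have h5 := F.D_det u t _ _ h3
    refine ⟨h3, rfl, h2, h5, ?_⟩
    rw [Nf_cell _ ht h5, Nf_cell (u := u) (y := y) _ ht rfl, N_cl k hr hi (by omega),
      N_cl k hr hi (by omega)]
    exact h4

/-! ### the last surprise -/

variable {Lab : Type*} {lam : Ω → Lab}

/-- the surprise of the fine box in its column -/
def Lb (F : Fr Ω) (ln : Ω → Pt) (p : Prm) (lam : Ω → Lab) (q : p.Col × Ω → ℝ)
    (z : p.Col × Ω) : ℝ :=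
  log (Pr q (fun z => z.1) z.1 / Pr q (rb F ln p lam) (rb F ln p lam z))

lemma sum_Lb {q : p.Col × Ω → ℝ} (hq : IsProb q) :
    ∑ z, q z * Lb F ln p lam q z = Hc q (rb F ln p lam) (fun z => z.1) := by
  rw [Hc_eq_sum hq]
  refine sum_congr rfl fun z _ => ?_
  unfold Lb
  have e : Pr q (fun z => (rb F ln p lam z, z.1)) (rb F ln p lam z, z.1) =
      Pr q (rb F ln p lam) (rb F ln p lam z) :=
    Pr_congr (X := fun z => (rb F ln p lam z, z.1)) (Y := rb F ln p lam) (det_fst _ _)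
      ((Det.refl _).pair rb_col) z
  rw [e, ← log_inv, inv_div]

lemma Lend_le {q : p.Col × Ω → ℝ} (hq : IsProb q) (u : ℝ) (k : p.Kap) {r i γ τ : ℕ} (hr : r < 3)
    (hi : i < 2 ^ (p.K + p.M + p.Γ)) {y : Ω} (hτ : τ ≤ F.T' y) (hex : F.T' y ≤ Prm.ex k)
    (hy : 0 < q ((k, off p r i), y)) :
    H279.Lend (fun i ω => q ((k, off p r i), ω)) (Xs F ln p u k) (bz F ln p k r)
      (fun t => Prm.ex k + γ - t) τ y i ≤ Lb F ln p lam q ((k, off p r i), y) := by
  have h0 : ∀ ω, 0 ≤ q ((k, off p r i), ω) := fun ω => hq.nonneg _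
  have a1 : Pr q (rb F ln p lam) (rb F ln p lam ((k, off p r i), y)) =
      Pr (fun ω => q ((k, off p r i), ω)) (rho F ln p lam (k, off p r i))
        (rho F ln p lam (k, off p r i) y) := by
    refine Pr_one q (rb F ln p lam) (rho F ln p lam (k, off p r i)) (k, off p r i) y ?_
    intro c' ω
    unfold rb
    simp only [Prod.mk.injEq]
    constructor
    · rintro ⟨h1, h2⟩
      subst h1
      exact ⟨rfl, h2⟩
    · rintro ⟨h1, h2⟩
      subst h1
      exact ⟨rfl, h2⟩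
  have a2 : Pr q (fun z : p.Col × Ω => z.1) (k, off p r i) =
      Pr (fun ω => q ((k, off p r i), ω)) (fun _ => ()) () :=
    Pr_one q (fun z : p.Col × Ω => z.1) (fun _ => ()) (k, off p r i) y
      (fun c' ω => ⟨fun h => ⟨h, rfl⟩, fun h => h.1⟩)
  unfold H279.Lend Lb
  rw [a1]
  simp only
  rw [a2]
  have p1 : 0 < Pr (fun ω => q ((k, off p r i), ω)) (rho F ln p lam (k, off p r i))
        (rho F ln p lam (k, off p r i) y) := by
    rw [H279.Pr_eq_ms]; exact H279.ms_pos h0 hy rfl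
  have p2 : 0 < Pr (fun ω => q ((k, off p r i), ω)) (Xs F ln p u k 0) (Xs F ln p u k 0 y) := by
    rw [H279.Pr_eq_ms]; exact H279.ms_pos h0 hy rfl
  have p3 : 0 < Pr (fun ω => q ((k, off p r i), ω)) (fun ω => (Xs F ln p u k τ ω,
      H279.cl (bz F ln p k r) (Prm.ex k + γ - τ) i ω)) (Xs F ln p u k τ y,
      H279.cl (bz F ln p k r) (Prm.ex k + γ - τ) i y) := by
    rw [H279.Pr_eq_ms]; exact H279.ms_pos h0 hy rfl
  apply log_le_log (div_pos p2 p3)
  apply div_le_div₀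
  · rw [H279.Pr_eq_ms]; exact H279.ms_nonneg h0 _
  · rw [H279.Pr_eq_ms, H279.Pr_eq_ms]
    exact H279.ms_mono h0 fun _ _ => rfl
  · exact p1
  · rw [H279.Pr_eq_ms, H279.Pr_eq_ms]
    apply H279.ms_mono h0
    intro ω h
    unfold rho at h
    simp only [Prod.mk.injEq] at h
    obtain ⟨⟨h1, -⟩, h2, h3⟩ := h
    have hx := F.xW _ _ h1
    have hT := F.T'x _ _ hx
    refine Prod.ext (Prod.ext h2 (F.D_of_x hx)) ?_
    simp only
    rw [← N_cl k hr hi (by omega), ← N_cl k hr hi (by omega)]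
    unfold Nr at h3
    rw [hT] at h3
    have e1 := Prm.N_add 0 (F.T' y) γ (k, off p r i) (F.P.x ω) (ln ω)
    have e2 := Prm.N_add 0 (F.T' y) γ (k, off p r i) (F.P.x y) (ln y)
    rw [zero_add] at e1 e2
    exact Prm.N_nest (t := F.T' y + γ) (by omega) (by rw [e1, e2, h3])

lemma ex_ge (k : p.Kap) : p.M ≤ Prm.ex k := by
  have h4 : Prm.ex k = p.K - Prm.js k + p.M := rfl
  omega

lemma ex_le (k : p.Kap) : Prm.ex k ≤ p.K + p.M := by
  have h4 : Prm.ex k = p.K - Prm.js k + p.M := rfl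
  omega

omit [Fintype Ω] in
/-- periodicity in the sense of 279 -/
lemma per_of_cell {q : p.Col × Ω → ℝ} (u : ℝ) (k : p.Kap) {r γ t : ℕ} (hr : r < 3) {y : Ω}
    (h : ∀ ω', F.D u t y = F.D u t ω' → ∀ i i' : Fin p.nT,
        (i : ℕ) % (3 * 2 ^ (Prm.ex k - t)) = i' % (3 * 2 ^ (Prm.ex k - t)) →
          q ((k, i), ω') = q ((k, i'), ω')) :
    H279.Per (p.K + p.M + p.Γ) (fun i ω => q ((k, off p r i), ω)) (Xs F ln p u k t)
      (Prm.ex k + γ - t) y := by
  intro i j hi hj hij ω hω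
  have h1 : F.D u t ω = F.D u t y := (Prod.mk.inj hω).2
  refine h ω h1.symm _ _ ?_
  rw [off_val hr hi, off_val hr hj]
  have h2 : i % 2 ^ (Prm.ex k - t) = j % 2 ^ (Prm.ex k - t) := by
    have hd : 2 ^ (Prm.ex k - t) ∣ 2 ^ (Prm.ex k + γ - t) := pow_dvd_pow 2 (by omega)
    rw [← Nat.mod_mod_of_dvd i hd, hij, Nat.mod_mod_of_dvd _ hd]
  have h3 : (3 * i + r) ≡ (3 * j + r) [MOD 3 * 2 ^ (Prm.ex k - t)] :=
    (Nat.ModEq.mul_left' (c := 3) (show i ≡ j [MOD 2 ^ (Prm.ex k - t)] from h2)).add_right r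
  exact h3


lemma Lb_nonneg {q : p.Col × Ω → ℝ} (hq : IsProb q) {z : p.Col × Ω} (hz : 0 < q z) :
    0 ≤ Lb F ln p lam q z := by
  unfold Lb
  exact H279.log_div_nonneg' (Pr_pos hq (rb F ln p lam) hz)
    (Pr_mono hq (X := rb F ln p lam) (Y := fun z => z.1) rb_col z)

lemma q_Lb_nonneg {q : p.Col × Ω → ℝ} (hq : IsProb q) (z : p.Col × Ω) :
    0 ≤ q z * Lb F ln p lam q z := by
  rcases (hq.nonneg z).eq_or_lt with h0 | h0
  · rw [← h0, zero_mul]
  · exact mul_nonneg h0.le (Lb_nonneg hq h0)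

/-- the sum over all flags, column by column -/
lemma sum_flags (f : p.Col × Ω → ℝ) :
    ∑ z, f z = ∑ k : p.Kap, ∑ y : Ω, ∑ r ∈ range 3, ∑ i ∈ range (2 ^ (p.K + p.M + p.Γ)),
      f ((k, off p r i), y) := by
  rw [Fintype.sum_prod_type, Fintype.sum_prod_type]
  refine sum_congr rfl fun k _ => ?_
  rw [sum_comm]
  exact sum_congr rfl fun y _ => sum_off fun i => f ((k, i), y)

/-- from one system of offsets to all flags -/
lemma sum_flags_le {f g : p.Col × Ω → ℝ}
    (h : ∀ (k : p.Kap) (y : Ω) (r : ℕ), r < 3 →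
      ∑ i ∈ range (2 ^ (p.K + p.M + p.Γ)), f ((k, off p r i), y) ≤
        ∑ i ∈ range (2 ^ (p.K + p.M + p.Γ)), g ((k, off p r i), y)) :
    ∑ z, f z ≤ ∑ z, g z := by
  rw [sum_flags f, sum_flags g]
  exact sum_le_sum fun k _ => sum_le_sum fun y _ => sum_le_sum fun r hr =>
    h k y r (mem_range.1 hr)

/-! ### near rows, own side -/

omit [Fintype Ω] in
lemma Xs_det (u : ℝ) (k : p.Kap) (y : Ω) (t : ℕ) (ω : Ω)
    (h : Xs F ln p u k (t + 1) ω = Xs F ln p u k (t + 1) y) :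
    Xs F ln p u k t ω = Xs F ln p u k t y := by
  unfold Xs at h ⊢
  simp only [Prod.mk.injEq] at h ⊢
  exact ⟨h.1, F.D_det u t _ _ h.2⟩

lemma near_one {q : p.Col × Ω → ℝ} (hq : IsProb q) (h : LPer F p q) (hM : F.Tm ≤ p.M) (u : ℝ)
    {a γ : ℕ} (hγ : γ ≤ a) (ha : a ≤ p.Γ) (T : ℕ) (lam : Ω → Lab) (k : p.Kap) (y : Ω) {r : ℕ}
    (hr : r < 3) (n : ℕ) (hn : n < 2 ^ (a - γ)) :
    ∑ i ∈ range (2 ^ (p.K + p.M + p.Γ)), q ((k, off p r i), y) * ∑ t ∈ range T,
      (if t < F.T' y ∧ posn F ln p γ (a - γ) t ((k, off p r i), y) = (n : ℤ) then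
        log (Pr q (Rt F ln p u a t) (Rt F ln p u a t ((k, off p r i), y)) /
          Pr q (fun z => (F.D u (t + 1) z.2, Rt F ln p u a t z))
            (F.D u (t + 1) y, Rt F ln p u a t ((k, off p r i), y))) else 0) ≤
      ∑ i ∈ range (2 ^ (p.K + p.M + p.Γ)), (2 ^ (a - γ) : ℝ)⁻¹ *
        (q ((k, off p r i), y) * Lb F ln p lam q ((k, off p r i), y)) := by
  set τ := min T (F.T' y) with hτ
  have hT' : F.T' y ≤ Prm.ex k := (F.T'_le y).trans (hM.trans (ex_ge k))
  have hτ1 : τ ≤ F.T' y := min_le_right _ _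
  have hexle := ex_le k
  have key := H279.near_pos (p.K + p.M + p.Γ) (a - γ) τ (fun i ω => q ((k, off p r i), ω))
    (fun i ω => hq.nonneg _) (Xs F ln p u k) (bz F ln p k r) (fun t => Prm.ex k + γ - t) y
    (fun t _ ω hω => Xs_det u k y t ω hω) (fun t _ => by omega)
    (fun t ht => by omega)
    (by
      intro t ht
      rcases h.cell hM u k t y with h1 | h1
      · left
        intro ω hω
        have h2 : F.D u t ω = F.D u t y := (Prod.mk.inj hω).2
        have h3 := h1 ω h2.symm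
        exact Prod.ext (Prod.mk.inj hω).1 (F.D_of_x h3.symm)
      · right
        exact per_of_cell u k hr h1) n hn
  rw [← mul_sum]
  refine le_trans (le_of_eq ?_) (key.trans ?_)
  · refine sum_congr rfl fun i hi => ?_
    have hi' := mem_range.1 hi
    congr 1
    symm
    have hsub : range τ ⊆ range T := range_subset_range.2 (min_le_left _ _)
    rw [← sum_subset hsub]
    · refine sum_congr rfl fun t ht => ?_
      have ht1 : t < τ := mem_range.1 ht
      have ht2 : t < F.T' y := by omega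
      have e0 : posn F ln p γ (a - γ) t ((k, off p r i), y) =
          H279.cl (bz F ln p k r) (Prm.ex k + γ - t) i y % 2 ^ (a - γ) := by
        unfold posn
        simp only
        rw [N_cl k hr hi' (by omega)]
      have e1 : Prm.ex k + γ - t + (a - γ) = Prm.ex k + a - t := by omega
      rw [Pr_Rt_cl q u k hr hi' ht2 hT', Pr_DRt_cl q u k hr hi' ht2 hT', e0, e1]
      by_cases hc : H279.cl (bz F ln p k r) (Prm.ex k + γ - t) i y % 2 ^ (a - γ) = (n : ℤ)
      · rw [if_pos hc, if_pos ⟨ht2, hc⟩]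
      · rw [if_neg hc, if_neg fun h' => hc h'.2]
    · intro t ht1 ht2
      rw [mem_range] at ht1 ht2
      rw [if_neg]
      rintro ⟨h1, -⟩
      omega
  · refine mul_le_mul_of_nonneg_left (sum_le_sum fun i hi => ?_) (by positivity)
    rcases (hq.nonneg ((k, off p r i), y)).eq_or_lt with h0 | h0
    · rw [← h0, zero_mul, zero_mul]
    · exact mul_le_mul_of_nonneg_left (Lend_le hq u k hr (mem_range.1 hi) hτ1 hT' h0) h0.le

/-- **Near rows, own side**: the surprises of the halves of the time cells, on the levels where the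
cell of guard `γ` of the flag has a position in `Pos` in its row of guard `a`. -/
theorem near_row {q : p.Col × Ω → ℝ} (hq : IsProb q) (h : LPer F p q) (hM : F.Tm ≤ p.M) (u : ℝ)
    {a γ : ℕ} (hγ : γ ≤ a) (ha : a ≤ p.Γ) (T : ℕ) (lam : Ω → Lab) (Pos : Finset ℤ) :
    ∑ z, q z * ∑ t ∈ range T,
      (if t < F.T' z.2 ∧ posn F ln p γ (a - γ) t z ∈ Pos then
        log (Pr q (Rt F ln p u a t) (Rt F ln p u a t z) /
          Pr q (fun z => (F.D u (t + 1) z.2, Rt F ln p u a t z))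
            (F.D u (t + 1) z.2, Rt F ln p u a t z)) else 0) ≤
      #Pos * (2 ^ (a - γ) : ℝ)⁻¹ * Hc q (rb F ln p lam) (fun z => z.1) := by
  set A : ℕ → p.Col × Ω → ℝ := fun t z => log (Pr q (Rt F ln p u a t) (Rt F ln p u a t z) /
          Pr q (fun z => (F.D u (t + 1) z.2, Rt F ln p u a t z))
            (F.D u (t + 1) z.2, Rt F ln p u a t z)) with hA
  have e1 : ∀ z, q z * ∑ t ∈ range T,
      (if t < F.T' z.2 ∧ posn F ln p γ (a - γ) t z ∈ Pos then A t z else 0) =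
      ∑ pp ∈ Pos, q z * ∑ t ∈ range T,
        (if t < F.T' z.2 ∧ posn F ln p γ (a - γ) t z = pp then A t z else 0) := by
    intro z
    rw [← mul_sum, sum_comm]
    congr 1
    refine sum_congr rfl fun t _ => ?_
    by_cases h1 : t < F.T' z.2
    · simp only [h1, true_and]
      rw [sum_ite_eq]
    · simp only [h1, false_and, if_false, sum_const_zero]
  rw [sum_congr rfl fun z _ => e1 z, sum_comm]
  have e2 : ∀ pp ∈ Pos, ∑ z, q z * ∑ t ∈ range T,
        (if t < F.T' z.2 ∧ posn F ln p γ (a - γ) t z = pp then A t z else 0) ≤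
      (2 ^ (a - γ) : ℝ)⁻¹ * Hc q (rb F ln p lam) (fun z => z.1) := by
    intro pp _
    rw [← sum_Lb hq, mul_sum]
    by_cases hpp : 0 ≤ pp ∧ pp < 2 ^ (a - γ)
    · obtain ⟨n, rfl⟩ := Int.eq_ofNat_of_zero_le hpp.1
      have hn : n < 2 ^ (a - γ) := by exact_mod_cast hpp.2
      exact sum_flags_le fun k y r hr => near_one hq h hM u hγ ha T lam k y hr n hn
    · refine sum_le_sum fun z _ => ?_
      rw [sum_eq_zero, mul_zero]
      · exact mul_nonneg (by positivity) (q_Lb_nonneg hq z)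
      · intro t _
        rw [if_neg]
        rintro ⟨-, h1⟩
        exact hpp ⟨h1 ▸ posn_nonneg γ (a - γ) t z, h1 ▸ posn_lt γ (a - γ) t z⟩
  refine (sum_le_sum e2).trans (le_of_eq ?_)
  rw [sum_const, nsmul_eq_mul, mul_assoc]

/-- the flag is at least two cells away from the ends of its row -/
def Deepn (F : Fr Ω) (ln : Ω → Pt) (p : Prm) (γ g t : ℕ) (z : p.Col × Ω) : Prop :=
  2 ≤ posn F ln p γ g t z ∧ posn F ln p γ g t z + 3 ≤ 2 ^ g

/-- the flag is at least one cell away from the ends of its row -/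
def Midn (F : Fr Ω) (ln : Ω → Pt) (p : Prm) (γ g t : ℕ) (z : p.Col × Ω) : Prop :=
  1 ≤ posn F ln p γ g t z ∧ posn F ln p γ g t z + 2 ≤ 2 ^ g

omit [Fintype Ω] in
lemma not_deep {γ g t : ℕ} {z : p.Col × Ω} (h : ¬ Deepn F ln p γ g t z) :
    posn F ln p γ g t z ∈ ({0, 1, 2 ^ g - 2, 2 ^ g - 1} : Finset ℤ) := by
  have h1 := posn_nonneg (F := F) (ln := ln) γ g t z
  have h2 := posn_lt (F := F) (ln := ln) γ g t z
  unfold Deepn at h
  simp only [mem_insert, mem_singleton]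
  omega

open Classical in
/-- **Near rows, own side, flags which are not deep** -/
theorem near_deep {q : p.Col × Ω → ℝ} (hq : IsProb q) (h : LPer F p q) (hM : F.Tm ≤ p.M) (u : ℝ)
    {a γ : ℕ} (hγ : γ ≤ a) (ha : a ≤ p.Γ) (T : ℕ) (lam : Ω → Lab) :
    ∑ z, q z * ∑ t ∈ range T,
      (if t < F.T' z.2 ∧ ¬ Deepn F ln p γ (a - γ) t z then
        log (Pr q (Rt F ln p u a t) (Rt F ln p u a t z) /
          Pr q (fun z => (F.D u (t + 1) z.2, Rt F ln p u a t z))
            (F.D u (t + 1) z.2, Rt F ln p u a t z)) else 0) ≤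
      4 * (2 ^ (a - γ) : ℝ)⁻¹ * Hc q (rb F ln p lam) (fun z => z.1) := by
  have h1 := near_row (ln := ln) hq h hM u hγ ha T lam
    ({0, 1, 2 ^ (a - γ) - 2, 2 ^ (a - γ) - 1} : Finset ℤ)
  refine le_trans (sum_le_sum fun z _ => ?_) (h1.trans ?_)
  · rcases (hq.nonneg z).eq_or_lt with h0 | h0
    · rw [← h0, zero_mul, zero_mul]
    · refine mul_le_mul_of_nonneg_left (sum_le_sum fun t _ => ?_) h0.le
      by_cases hc : t < F.T' z.2 ∧ ¬ Deepn F ln p γ (a - γ) t z
      · rw [if_pos hc, if_pos ⟨hc.1, not_deep hc.2⟩]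
      · rw [if_neg hc]
        split_ifs
        · refine H279.log_div_nonneg' (Pr_pos hq (fun z => (F.D u (t + 1) z.2,
            Rt F ln p u a t z)) h0) ?_
          exact Pr_mono hq (X := fun z => (F.D u (t + 1) z.2, Rt F ln p u a t z))
            (Y := Rt F ln p u a t) (det_snd _ _) z
        · exact le_rfl
  · have h2 : (#({0, 1, 2 ^ (a - γ) - 2, 2 ^ (a - γ) - 1} : Finset ℤ) : ℝ) ≤ 4 := by
      exact_mod_cast card_le_four
    have h3 : 0 ≤ Hc q (rb F ln p lam) (fun z => z.1) := Hc_nonneg hq _ _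
    have h4 : (0 : ℝ) ≤ (2 ^ (a - γ) : ℝ)⁻¹ := by positivity
    exact mul_le_mul_of_nonneg_right (mul_le_mul_of_nonneg_right h2 h4) h3

/-! ### the middle part of the row -/

/-- mass of the middle part of the row of a flag -/
def midM (F : Fr Ω) (ln : Ω → Pt) (p : Prm) (q : p.Col × Ω → ℝ) (u : ℝ) (a γ t : ℕ)
    (z : p.Col × Ω) : ℝ :=
  H279.ms q fun z' => Rt F ln p u a t z' = Rt F ln p u a t z ∧ Midn F ln p γ (a - γ) t z'

lemma midM_cl (q : p.Col × Ω → ℝ) (u : ℝ) (k : p.Kap) {r i a γ t : ℕ} (hγ : γ ≤ a) (hr : r < 3)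
    (hi : i < 2 ^ (p.K + p.M + p.Γ)) {y : Ω} (ht : t < F.T' y) (hex : F.T' y ≤ Prm.ex k) :
    midM F ln p q u a γ t ((k, off p r i), y) =
      H279.mid (fun ω => q ((k, off p r i), ω)) (Xs F ln p u k t) (bz F ln p k r)
        (Prm.ex k + γ - t) (a - γ) i y := by
  have e1 : Prm.ex k + γ - t + (a - γ) = Prm.ex k + a - t := by omega
  unfold midM H279.mid
  refine ms_one q _ _ (k, off p r i) ?_
  intro c' ω
  have hp : posn F ln p γ (a - γ) t ((k, off p r i), ω) =
      H279.cl (bz F ln p k r) (Prm.ex k + γ - t) i ω % 2 ^ (a - γ) := by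
    unfold posn
    simp only
    rw [N_cl k hr hi (by omega)]
  rw [e1]
  constructor
  · rintro ⟨h1, h2⟩
    unfold Rt at h1
    simp only [Prod.mk.injEq] at h1
    obtain ⟨h3, h4, h5, h6⟩ := h1
    subst h3
    rw [Nf_cell _ ht h5, Nf_cell (u := u) (y := y) _ ht rfl, N_cl k hr hi (by omega),
      N_cl k hr hi (by omega)] at h6
    unfold Midn at h2
    rw [hp] at h2
    exact ⟨rfl, Prod.ext h4 h5, h6, h2.1, h2.2⟩
  · rintro ⟨h1, h2, h3, h4, h5⟩
    subst h1
    have h6 := Prod.mk.inj h2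
    refine ⟨?_, ?_⟩
    · unfold Rt
      simp only [Prod.mk.injEq]
      refine ⟨trivial, h6.1, h6.2, ?_⟩
      rw [Nf_cell _ ht h6.2, Nf_cell (u := u) (y := y) _ ht rfl, N_cl k hr hi (by omega),
        N_cl k hr hi (by omega)]
      exact h3
    · unfold Midn
      rw [hp]
      exact ⟨h4, h5⟩

open Classical in
/-- **The middle part of the row, deep flags**: `act t y` any condition which implies that the time
cell of `y` at the level `t` has two centres. -/
theorem mid_row {q : p.Col × Ω → ℝ} (hq : IsProb q) (h : LPer F p q) (hM : F.Tm ≤ p.M) (u : ℝ)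
    {a γ : ℕ} (hγ : γ < a) (ha : a ≤ p.Γ) (T : ℕ) (lam : Ω → Lab) (act : ℕ → Ω → Prop)
    (hact : ∀ t y, act t y → ∃ ω, F.D u t ω = F.D u t y ∧ F.P.x ω ≠ F.P.x y) :
    ∑ z, q z * ∑ t ∈ range T,
      (if act t z.2 ∧ Deepn F ln p γ (a - γ) t z then
        log (Pr q (Rt F ln p u a t) (Rt F ln p u a t z) / midM F ln p q u a γ t z) else 0) ≤
      2 * ((a - γ : ℕ) : ℝ) * (2 ^ (a - γ) : ℝ)⁻¹ * Hc q (rb F ln p lam) (fun z => z.1) := by
  rw [← sum_Lb hq, mul_sum]
  refine sum_flags_le fun k y r hr => ?_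
  set τ := min T (F.T' y) with hτ
  have hT' : F.T' y ≤ Prm.ex k := (F.T'_le y).trans (hM.trans (ex_ge k))
  have hτ1 : τ ≤ F.T' y := min_le_right _ _
  have hexle := ex_le k
  have hlt : ∀ t, act t y → t < F.T' y := by
    intro t ht
    obtain ⟨ω, h1, h2⟩ := hact t y ht
    exact F.lt_of_ne h1.symm (Ne.symm h2)
  have key := H279.mid_content (p.K + p.M + p.Γ) (a - γ) (a - γ) τ (by omega)
    (fun i ω => q ((k, off p r i), ω))
    (fun i ω => hq.nonneg _) (Xs F ln p u k) (bz F ln p k r) (fun t => Prm.ex k + γ - t) y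
    (fun t _ ω hω => Xs_det u k y t ω hω) (fun t _ => by omega)
    (fun t ht => by omega)
    (fun t ht => by omega) (fun t => act t y)
    (by
      intro t ht hat
      rcases h.cell hM u k t y with h1 | h1
      · exfalso
        obtain ⟨ω, h2, h3⟩ := hact t y hat
        exact h3 (h1 ω h2.symm).symm
      · exact per_of_cell u k hr h1)
  have e2 : ∑ i ∈ range (2 ^ (p.K + p.M + p.Γ)), 2 * ((a - γ : ℕ) : ℝ) * (2 ^ (a - γ) : ℝ)⁻¹ *
        (q ((k, off p r i), y) * Lb F ln p lam q ((k, off p r i), y)) =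
      2 * ((a - γ : ℕ) : ℝ) * (2 ^ (a - γ) : ℝ)⁻¹ * ∑ i ∈ range (2 ^ (p.K + p.M + p.Γ)),
        (q ((k, off p r i), y) * Lb F ln p lam q ((k, off p r i), y)) := by
    rw [mul_sum]
  rw [e2]
  refine le_trans (le_of_eq ?_) (key.trans ?_)
  · refine sum_congr rfl fun i hi => ?_
    have hi' := mem_range.1 hi
    simp only
    congr 1
    symm
    have hsub : range τ ⊆ range T := range_subset_range.2 (min_le_left _ _)
    rw [← sum_subset hsub]
    · refine sum_congr rfl fun t ht => ?_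
      have ht1 : t < τ := mem_range.1 ht
      have ht2 : t < F.T' y := by omega
      have e0 : posn F ln p γ (a - γ) t ((k, off p r i), y) =
          H279.cl (bz F ln p k r) (Prm.ex k + γ - t) i y % 2 ^ (a - γ) := by
        unfold posn
        simp only
        rw [N_cl k hr hi' (by omega)]
      have e1 : Prm.ex k + γ - t + (a - γ) = Prm.ex k + a - t := by omega
      unfold Deepn
      rw [Pr_Rt_cl q u k hr hi' ht2 hT', midM_cl q u k hγ.le hr hi' ht2 hT', e0, e1]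
      by_cases hc : act t y ∧ 2 ≤ H279.cl (bz F ln p k r) (Prm.ex k + γ - t) i y % 2 ^ (a - γ) ∧
          H279.cl (bz F ln p k r) (Prm.ex k + γ - t) i y % 2 ^ (a - γ) + 3 ≤ 2 ^ (a - γ)
      · rw [if_pos hc, if_pos hc]
      · rw [if_neg hc, if_neg hc]
    · intro t ht1 ht2
      rw [mem_range] at ht1 ht2
      rw [if_neg]
      rintro ⟨h1, -⟩
      have := hlt t h1
      omega
  · refine mul_le_mul_of_nonneg_left (sum_le_sum fun i hi => ?_) (by positivity)
    rcases (hq.nonneg ((k, off p r i), y)).eq_or_lt with h0 | h0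
    · rw [← h0, zero_mul, zero_mul]
    · exact mul_le_mul_of_nonneg_left (Lend_le hq u k hr (mem_range.1 hi) hτ1 hT' h0) h0.le

end nr

end Vale.Agent.P065.H649
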