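import Vale.Agent.P065.H700.Budget2
import Vale.Agent.P065.H353.Transfer

/-!
# P065: coarse-light blocks and the number of active columns of a line (helper649)

In a column with two marked slope blocks we also ask that both blocks have a mass which is not too
small relative to their *coarse* slope cell. The loss of total weight is small, and then the number
of slope scales at which one line can be active is polynomial.
-/

set_option autoImplicit false

open Finset Real

noncomputable section

namespace Vale.Agent.P065.H649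

open Vale.Agent.P065.Ent

/-! ## Counting large steps of a decreasing sequence -/

/-- separated large steps multiply -/
lemma le_pow_card {m : ℕ → ℝ} (hm : Antitone m) (h1 : ∀ j, m j ≤ 1) {θ : ℝ} (hθ : 0 ≤ θ) {P : ℕ}
    (A : Finset ℕ) (hA : ∀ j ∈ A, m (j + P) ≤ θ * m j)
    (hsep : ∀ j ∈ A, ∀ j' ∈ A, j < j' → j + P ≤ j') (j : ℕ) (hj : j ∈ A) :
    m j ≤ θ ^ #{i ∈ A | i < j} := by
  classical
  induction j using Nat.strong_induction_on with
  | _ j ih =>
    rcases ({i ∈ A | i < j} : Finset ℕ).eq_empty_or_nonempty with h0 | h0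
    · rw [h0]
      simpa using h1 j
    · set i := ({i ∈ A | i < j} : Finset ℕ).max' h0 with hi
      have hi1 : i ∈ ({i ∈ A | i < j} : Finset ℕ) := max'_mem _ _
      obtain ⟨hiA, hij⟩ := mem_filter.1 hi1
      have h2 := ih i hij hiA
      have h3 := hsep i hiA j hj hij
      have h4 : ({i ∈ A | i < j} : Finset ℕ) = insert i {i' ∈ A | i' < i} := by
        ext a
        simp only [mem_filter, mem_insert]
        constructor
        · rintro ⟨ha, haj⟩
          have h5 : a ≤ i := le_max' _ _ (mem_filter.2 ⟨ha, haj⟩)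
          rcases h5.eq_or_lt with h6 | h6
          · exact Or.inl h6
          · exact Or.inr ⟨ha, h6⟩
        · rintro (rfl | ⟨ha, hai⟩)
          · exact ⟨hiA, hij⟩
          · exact ⟨ha, hai.trans hij⟩
      have h5 : #{i' ∈ A | i' < j} = #{i' ∈ A | i' < i} + 1 := by
        rw [h4, card_insert_of_notMem]
        simp
      rw [h5, pow_succ]
      calc m j ≤ m (i + P) := hm h3
        _ ≤ θ * m i := hA i hiA
        _ ≤ θ * θ ^ #{i' ∈ A | i' < i} := mul_le_mul_of_nonneg_left h2 hθ
        _ = _ := mul_comm _ _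

/-- the number of large steps, one residue class -/
lemma card_le_sep {m : ℕ → ℝ} (hm : Antitone m) (h1 : ∀ j, m j ≤ 1) {θ E : ℝ} (hθ : 0 < θ)
    (hθ1 : θ < 1) {P : ℕ} (A : Finset ℕ) (hA : ∀ j ∈ A, m (j + P) ≤ θ * m j)
    (hrel : ∀ j ∈ A, exp (-E) ≤ m j)
    (hsep : ∀ j ∈ A, ∀ j' ∈ A, j < j' → j + P ≤ j') (hE : 0 ≤ E) :
    (#A : ℝ) ≤ E / log (1 / θ) + 1 := by
  classical
  have hl : 0 < log (1 / θ) := log_pos (by rw [one_div]; exact (one_lt_inv₀ hθ).2 hθ1)
  rcases A.eq_empty_or_nonempty with h0 | h0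
  · rw [h0]
    simp only [card_empty, Nat.cast_zero]
    positivity
  · set j := A.max' h0 with hj
    have hjA : j ∈ A := max'_mem _ _
    have h2 := le_pow_card hm h1 hθ.le A hA hsep j hjA
    have h3 : A = insert j {i ∈ A | i < j} := by
      ext a
      simp only [mem_filter, mem_insert]
      constructor
      · intro ha
        rcases (le_max' A a ha).eq_or_lt with h6 | h6
        · exact Or.inl h6
        · exact Or.inr ⟨ha, h6⟩
      · rintro (rfl | ⟨ha, -⟩)
        · exact hjA
        · exact ha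
    have h4 : #A = #{i ∈ A | i < j} + 1 := by
      conv_lhs => rw [h3]
      rw [card_insert_of_notMem]
      simp
    have h5 := (hrel j hjA).trans h2
    have h6 := log_le_log (exp_pos _) h5
    rw [log_exp, log_pow] at h6
    have h7 : log (1 / θ) = - log θ := by rw [one_div, log_inv]
    rw [h4]
    push_cast
    rw [add_le_add_iff_right, le_div_iff₀ hl, h7]
    linarith

/-- **the number of large steps**: at most `P (E / log (1 / θ) + 1)` -/
theorem card_steps {m : ℕ → ℝ} (hm : Antitone m) (h1 : ∀ j, m j ≤ 1) {θ E : ℝ} (hθ : 0 < θ)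
    (hθ1 : θ < 1) (hE : 0 ≤ E) {P : ℕ} (hP : 0 < P) (A : Finset ℕ)
    (hA : ∀ j ∈ A, m (j + P) ≤ θ * m j) (hrel : ∀ j ∈ A, exp (-E) ≤ m j) :
    (#A : ℝ) ≤ P * (E / log (1 / θ) + 1) := by
  classical
  have h2 : #A = ∑ r ∈ range P, #{j ∈ A | j % P = r} := by
    rw [card_eq_sum_card_fiberwise (f := fun j => j % P) (t := range P)]
    intro j _
    simp only [coe_range, Set.mem_Iio]
    exact Nat.mod_lt _ hP
  have h3 : ∀ r ∈ range P, (#{j ∈ A | j % P = r} : ℝ) ≤ E / log (1 / θ) + 1 := by
    intro r _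
    refine card_le_sep hm h1 hθ hθ1 (P := P) _ (fun j hj => hA j (mem_filter.1 hj).1)
      (fun j hj => hrel j (mem_filter.1 hj).1) ?_ hE
    intro j hj j' hj' hlt
    have e1 := (mem_filter.1 hj).2
    have e2 := (mem_filter.1 hj').2
    have e3 : j ≡ j' [MOD P] := e1.trans e2.symm
    have e4 := (Nat.modEq_iff_dvd' hlt.le).1 e3
    have e5 := Nat.le_of_dvd (by omega) e4
    omega
  rw [h2]
  push_cast
  refine (sum_le_sum h3).trans ?_
  rw [sum_const, card_range, nsmul_eq_mul]

/-- `E / log (1 / (1 - τ)) ≤ E / τ` -/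
lemma div_log_le {τ E : ℝ} (h0 : 0 < τ) (h1 : τ < 1) (hE : 0 ≤ E) :
    E / log (1 / (1 - τ)) ≤ E / τ := by
  have h2 : τ ≤ log (1 / (1 - τ)) := by
    rw [one_div, log_inv]
    have := log_le_sub_one_of_pos (show 0 < 1 - τ by linarith)
    linarith
  exact div_le_div_of_nonneg_left hE h0 h2

end Vale.Agent.P065.H649
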