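import Vale.Agent.P065.H154.FrameGuard
import Vale.Agent.P065.H649.Coarse

/-!
# P065: the coarse shares of the two marked blocks, in the frame (helper649)

`crs μ ln p τ c x` : both marked slope blocks of the column `c` have a share at least `τ` in the
slope cell `x` (coarse law, all flags of the window). `fc` : the weights restricted to these cells.

* `J_fc` : the loss of total weight is at most a constant times `E / log (1 / τ) + 1`;
* `card_active` : a line is active in at most `nT * N₁` columns, `N₁ ~ E / τ`;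
* `hG` : the growth along the lines, input `hG` of the bookkeeping theorem.
-/

set_option autoImplicit false

open Finset Real

noncomputable section

namespace Vale.Agent.P065.H649

open Vale.Agent.P065.UB Vale.Agent.P065.Ent Vale.Agent.P065.H700 Vale.Agent.P065.H154
  Vale.Agent.P065.H725

variable {Ω : Type*} [Fintype Ω] {F : Fr Ω} {ln : Ω → Pt} {p : Prm} {Lab : Type*} {lam : Ω → Lab}

/-! ## The slope cells of one system -/

/-- the slope cell of the scale `k₀ + j` -/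
def Sj (p : Prm) (ln : Ω → Pt) (a : Bool) (j : ℕ) (ω : Ω) : ℤ := Sc p.k₀ a (p.k₀ + j) (ln ω)

omit [Fintype Ω] in
lemma Sj_nest (a : Bool) {i j : ℕ} (h : i ≤ j) : Det (Sj p ln a j) (Sj p ln a i) :=
  fun _ _ e => Sc_nest (by omega) e

omit [Fintype Ω] in
lemma S_eq_Sj (c : p.Col) (ω : Ω) : Prm.S c.1 (ln ω) = Sj p ln (Prm.sy c.1) (Prm.js c.1) ω := rfl

omit [Fintype Ω] in
lemma Sj_add (c : p.Col) (ω : Ω) : Sj p ln (Prm.sy c.1) (Prm.js c.1 + p.PP) ω =
    Prm.S c.1 (ln ω) * 2 ^ p.PP + bk p.k₀ (Prm.sy c.1) (Prm.sc c.1) p.PP (ln ω) := by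
  have h := Sc_add p.k₀ (Prm.sy c.1) (Prm.sc c.1) p.PP (ln ω)
  have e : Prm.sc c.1 + (p.PP : ℤ) = p.k₀ + ((Prm.js c.1 + p.PP : ℕ) : ℤ) := by
    show p.k₀ + (Prm.js c.1 : ℤ) + (p.PP : ℤ) = _
    push_cast
    ring
  rw [e] at h
  exact h

/-- the mass of the own slope cell -/
def ms (μ : Ω → ℝ) (p : Prm) (ln : Ω → Pt) (a : Bool) (ω : Ω) (j : ℕ) : ℝ :=
  Pr μ (Sj p ln a j) (Sj p ln a j ω)

lemma ms_anti {μ : Ω → ℝ} (hμ : IsProb μ) (a : Bool) (ω : Ω) : Antitone (ms μ p ln a ω) :=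
  fun _ _ h => Pr_mono hμ (Sj_nest a h) ω

lemma ms_le_one {μ : Ω → ℝ} (hμ : IsProb μ) (a : Bool) (ω : Ω) (j : ℕ) : ms μ p ln a ω j ≤ 1 :=
  Pr_le_one hμ _ _

/-! ## Coarse shares -/

/-- both marked blocks have a share at least `τ` in the slope cell `x` -/
def crs (μ : Ω → ℝ) (ln : Ω → Pt) (p : Prm) (τ : ℝ) (c : p.Col) (x : ℤ) : Prop :=
  ∀ b : Bool, τ * Pr μ (fun ω => Prm.S c.1 (ln ω)) x ≤
    Pr μ (fun ω => (lb ln p c ω, Prm.S c.1 (ln ω))) (some b, x)

open Classical in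
/-- the weights restricted to the cells with large coarse shares -/
def fc (μ : Ω → ℝ) (ln : Ω → Pt) (p : Prm) (τ : ℝ) (f : p.Col → (ℕ × Lab) × ℤ × ℤ → ℝ)
    (c : p.Col) (r : (ℕ × Lab) × ℤ × ℤ) : ℝ := if crs μ ln p τ c r.2.1 then f c r else 0

variable {μ : Ω → ℝ} {τ : ℝ} {f : p.Col → (ℕ × Lab) × ℤ × ℤ → ℝ}

lemma fc_nonneg (f0 : ∀ k r, 0 ≤ f k r) (k : p.Col) (r : (ℕ × Lab) × ℤ × ℤ) :
    0 ≤ fc μ ln p τ f k r := by
  unfold fc
  split_ifs
  · exact f0 k r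
  · exact le_rfl

lemma fc_le (f0 : ∀ k r, 0 ≤ f k r) (k : p.Col) (r : (ℕ × Lab) × ℤ × ℤ) :
    fc μ ln p τ f k r ≤ f k r := by
  unfold fc
  split_ifs
  · exact le_rfl
  · exact f0 k r

lemma fc_le_one (f0 : ∀ k r, 0 ≤ f k r) (f1 : ∀ k r, f k r ≤ 1) (k : p.Col)
    (r : (ℕ × Lab) × ℤ × ℤ) : fc μ ln p τ f k r ≤ 1 := (fc_le f0 k r).trans (f1 k r)

/-- the restricted weights are periodic -/
lemma fc_per (hf : FPer F ln p lam f) : FPer F ln p lam (fc μ ln p τ f) := by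
  intro k i i' ω h
  have h1 := hf k i i' ω h
  unfold fc
  have h2 : crs μ ln p τ (k, i) (rho F ln p lam (k, i) ω).2.1 ↔
      crs μ ln p τ (k, i') (rho F ln p lam (k, i') ω).2.1 := Iff.rfl
  by_cases h3 : crs μ ln p τ (k, i) (rho F ln p lam (k, i) ω).2.1
  · rw [if_pos h3, if_pos (h2.1 h3), h1]
  · rw [if_neg h3, if_neg (mt h2.2 h3)]

/-! ## Blocks -/

omit [Fintype Ω] in
lemma lb_block {c : p.Col} {ω : Ω} {b : Bool} (h : lb ln p c ω = some b) :
    bk p.k₀ (Prm.sy c.1) (Prm.sc c.1) p.PP (ln ω) =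
      ((if b then Prm.b1 c.1 else Prm.b0 c.1 : ℕ) : ℤ) := by
  unfold lb at h
  split_ifs at h with h1 h2
  · cases b
    · simpa using h1
    · simp at h
  · cases b
    · simp at h
    · simpa using h2

/-- the mass of the own block -/
lemma Pr_block {c : p.Col} {ω : Ω} {b : Bool} (h : lb ln p c ω = some b) :
    Pr μ (fun ω => (lb ln p c ω, Prm.S c.1 (ln ω))) (some b, Prm.S c.1 (ln ω)) =
      ms μ p ln (Prm.sy c.1) ω (Prm.js c.1 + p.PP) := by
  classical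
  unfold ms Pr
  refine sum_congr rfl fun ω' _ => ?_
  have key : ((lb ln p c ω', Prm.S c.1 (ln ω')) = (some b, Prm.S c.1 (ln ω))) ↔
      Sj p ln (Prm.sy c.1) (Prm.js c.1 + p.PP) ω' =
        Sj p ln (Prm.sy c.1) (Prm.js c.1 + p.PP) ω := by
    rw [Sj_add, Sj_add]
    constructor
    · intro h1
      obtain ⟨h2, h3⟩ := Prod.mk.inj h1
      rw [h3, lb_block h2, lb_block h]
    · intro h1
      have h2 : Prm.S c.1 (ln ω') = Prm.S c.1 (ln ω) := by
        have h3 := Sj_nest (p := p) (ln := ln) (Prm.sy c.1)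
          (Nat.le_add_right (Prm.js c.1) p.PP) ω' ω (by rw [Sj_add, Sj_add]; exact h1)
        exact h3
      have h4 : bk p.k₀ (Prm.sy c.1) (Prm.sc c.1) p.PP (ln ω') =
          bk p.k₀ (Prm.sy c.1) (Prm.sc c.1) p.PP (ln ω) := by
        rw [h2] at h1
        linarith
      refine Prod.ext ?_ h2
      show lb ln p c ω' = some b
      rw [← h]
      unfold lb
      rw [h4]
  by_cases h5 : (lb ln p c ω', Prm.S c.1 (ln ω')) = (some b, Prm.S c.1 (ln ω))
  · rw [if_pos h5, if_pos (key.1 h5)]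
  · rw [if_neg h5, if_neg (mt key.2 h5)]

/-! ## Counting columns -/

omit [Fintype Ω] in
/-- the number of columns in which a flag is in the block `b`, the scale restricted to a set with at
most `B` elements -/
lemma card_cols (ω : Ω) (b : Bool) (Pd : Bool → ℕ → Prop) {B : ℝ}
    [DecidablePred fun c : p.Col => lb ln p c ω = some b ∧ Pd (Prm.sy c.1) (Prm.js c.1)]
    (hB : ∀ a (A : Finset ℕ), (∀ j ∈ A, Pd a j) → (#A : ℝ) ≤ B) :
    (#{c : p.Col | lb ln p c ω = some b ∧ Pd (Prm.sy c.1) (Prm.js c.1)} : ℝ) ≤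
      p.nT * (2 * 2 ^ p.PP * B) := by
  classical
  set T : Finset (Bool × Fin (p.K + 1)) := univ.filter fun x => Pd x.1 x.2 with hT
  have hTcard : (#T : ℝ) ≤ 2 * B := by
    have h1 : #T ≤ ∑ a : Bool, #(univ.filter fun j : Fin (p.K + 1) => Pd a (j : ℕ)) := by
      rw [hT, card_filter, Fintype.sum_prod_type]
      refine sum_le_sum fun a _ => ?_
      rw [card_filter]
    have h2 : ∀ a : Bool,
        (#(univ.filter fun j : Fin (p.K + 1) => Pd a (j : ℕ)) : ℝ) ≤ B := by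
      intro a
      have h3 := hB a ((univ.filter fun j : Fin (p.K + 1) => Pd a (j : ℕ)).map
        ⟨fun j : Fin (p.K + 1) => (j : ℕ), fun i j h => Fin.ext h⟩) (by
          intro j hj
          obtain ⟨i, hi, rfl⟩ := mem_map.1 hj
          exact (mem_filter.1 hi).2)
      rwa [card_map] at h3
    calc (#T : ℝ) ≤ ((∑ a : Bool, #(univ.filter fun j : Fin (p.K + 1) => Pd a (j : ℕ)) : ℕ) : ℝ) :=
          by exact_mod_cast h1
      _ = ∑ a : Bool, (#(univ.filter fun j : Fin (p.K + 1) => Pd a (j : ℕ)) : ℝ) := by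
          push_cast; rfl
      _ ≤ ∑ _a : Bool, B := sum_le_sum fun a _ => h2 a
      _ = 2 * B := by simp
  set g : p.Col → (Bool × Fin (p.K + 1)) × (Fin (2 ^ p.PP) × Fin p.nT) := fun c =>
    ((c.1.1, c.1.2.1), ((if b then c.1.2.2.1 else c.1.2.2.2), c.2)) with hg
  have hcard : #{c : p.Col | lb ln p c ω = some b ∧ Pd (Prm.sy c.1) (Prm.js c.1)} ≤
      #(T ×ˢ (univ : Finset (Fin (2 ^ p.PP) × Fin p.nT))) := by
    refine card_le_card_of_injOn g ?_ ?_
    · intro c hc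
      have hc' := (mem_filter.1 (mem_coe.1 hc)).2
      simp only [coe_product, Set.mem_prod, mem_coe, mem_univ, and_true]
      exact mem_filter.2 ⟨mem_univ _, hc'.2⟩
    · intro c hc c' hc' h
      have h1 := (mem_filter.1 (mem_coe.1 hc)).2.1
      have h2 := (mem_filter.1 (mem_coe.1 hc')).2.1
      obtain ⟨⟨a, j, b0, b1⟩, i⟩ := c
      obtain ⟨⟨a', j', b0', b1'⟩, i'⟩ := c'
      simp only [hg, Prod.mk.injEq] at h
      obtain ⟨⟨rfl, rfl⟩, h3, rfl⟩ := h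
      have e1 := lb_block h1
      have e2 := lb_block h2
      have e3 : ((if b then (b1 : ℕ) else (b0 : ℕ) : ℕ) : ℤ) =
          ((if b then (b1' : ℕ) else (b0' : ℕ) : ℕ) : ℤ) := e1.symm.trans e2
      cases b
      · simp only [Bool.false_eq_true, if_false] at e3 h3
        have e4 : b0 = b0' := Fin.ext (by exact_mod_cast e3)
        rw [e4, h3]
      · simp only [if_true] at e3 h3
        have e4 : b1 = b1' := Fin.ext (by exact_mod_cast e3)
        rw [e4, h3]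
  have h5 : (#(T ×ˢ (univ : Finset (Fin (2 ^ p.PP) × Fin p.nT))) : ℝ) =
      #T * (2 ^ p.PP * p.nT) := by
    rw [card_product]
    simp [Fintype.card_prod]
  calc (#{c : p.Col | lb ln p c ω = some b ∧ Pd (Prm.sy c.1) (Prm.js c.1)} : ℝ) ≤
        (#(T ×ˢ (univ : Finset (Fin (2 ^ p.PP) × Fin p.nT))) : ℝ) := by exact_mod_cast hcard
    _ = #T * (2 ^ p.PP * p.nT) := h5
    _ ≤ 2 * B * (2 ^ p.PP * p.nT) := mul_le_mul_of_nonneg_right hTcard (by positivity)
    _ = p.nT * (2 * 2 ^ p.PP * B) := by ring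

/-! ## The loss of weight -/

section loss

variable {f0 : ∀ k r, 0 ≤ f k r} {f1 : ∀ k r, f k r ≤ 1}

open Classical in
/-- weights of fine boxes are at most the mass of each label, with a nonnegative function of the
fine box -/
lemma sum_wt_le {κ α : Type*} [Fintype κ] (C : Cols Ω κ α) (hμ : IsProb μ) (k : κ) (b : Bool)
    (g : α → ℝ) (hg : ∀ a, 0 ≤ g a) :
    ∑ ω, μ ω * (C.wt μ k (C.ρ k ω) * g (C.ρ k ω)) ≤
      ∑ ω, (if C.E k ω = some b then μ ω * g (C.ρ k ω) else 0) := by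
  have h1 := Cols.label_sum (C := C) hμ k b g
  have h2 : ∑ ω, μ ω * (C.wt μ k (C.ρ k ω) * g (C.ρ k ω)) =
      2 * ∑ ω, (if C.E k ω = some b then μ ω * C.dens μ k ω * g (C.ρ k ω) else 0) := by
    rw [h1]; ring
  rw [h2, mul_sum]
  refine sum_le_sum fun ω _ => ?_
  split_ifs
  · have h3 := Cols.dens_le (C := C) hμ k ω
    have h4 := hμ.nonneg ω
    have h5 := hg (C.ρ k ω)
    nlinarith [mul_nonneg h4 h5]
  · simp

/-- double counting -/
lemma sum_ind_le {κ : Type*} [Fintype κ] (hμ : IsProb μ) (Q : κ → Bool → Ω → Prop)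
    [∀ c b ω, Decidable (Q c b ω)] {B : ℝ}
    (hB : ∀ (ω : Ω) (b : Bool), (#{c : κ | Q c b ω} : ℝ) ≤ B) :
    ∑ c, ∑ b : Bool, ∑ ω, (if Q c b ω then μ ω else 0) ≤ 2 * B := by
  have h1 : ∀ b : Bool, ∑ c, ∑ ω, (if Q c b ω then μ ω else 0) ≤ B := by
    intro b
    rw [sum_comm]
    have h2 : ∀ ω, ∑ c, (if Q c b ω then μ ω else 0) ≤ μ ω * B := by
      intro ω
      rw [← sum_filter, sum_const, nsmul_eq_mul, mul_comm]
      exact mul_le_mul_of_nonneg_left (hB ω b) (hμ.nonneg ω)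
    refine (sum_le_sum fun ω _ => h2 ω).trans (le_of_eq ?_)
    rw [← sum_mul, hμ.sum, one_mul]
  rw [sum_comm]
  simp only [Fintype.sum_bool]
  have h3 := h1 true
  have h4 := h1 false
  linarith

/-- the condition: large coarse cell, small block -/
def cd (μ : Ω → ℝ) (ln : Ω → Pt) (p : Prm) (τ E : ℝ) (c : p.Col) (b : Bool) (x : ℤ) : Prop :=
  exp (-E) ≤ Pr μ (fun ω => Prm.S c.1 (ln ω)) x ∧
      Pr μ (fun ω => (lb ln p c ω, Prm.S c.1 (ln ω))) (some b, x) <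
        τ * Pr μ (fun ω => Prm.S c.1 (ln ω)) x

/-- the same condition on the own path -/
def Pd (μ : Ω → ℝ) (ln : Ω → Pt) (p : Prm) (τ E : ℝ) (ω : Ω) (a : Bool) (j : ℕ) : Prop :=
  exp (-E) ≤ ms μ p ln a ω j ∧ ms μ p ln a ω (j + p.PP) ≤ τ * ms μ p ln a ω j

lemma Pd_of_cd {E : ℝ} {c : p.Col} {b : Bool} {ω : Ω} (h : lb ln p c ω = some b)
    (h5 : cd μ ln p τ E c b (Prm.S c.1 (ln ω))) :
    Pd μ ln p τ E ω (Prm.sy c.1) (Prm.js c.1) := by
  refine ⟨h5.1, ?_⟩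
  have h6 := h5.2.le
  rw [Pr_block h] at h6
  exact h6

open Classical in
/-- one column -/
lemma loss_col (hμ : IsProb μ) {E : ℝ} (c : p.Col)
    (hrel : ∀ ω, 0 < (cols F ln p lam f f0 f1).wt μ c (rho F ln p lam c ω) →
      exp (-E) ≤ Pr μ (fun ω => Prm.S c.1 (ln ω)) (Prm.S c.1 (ln ω))) :
    ∑ ω, μ ω * (if crs μ ln p τ c (Prm.S c.1 (ln ω)) then 0 else
        (cols F ln p lam f f0 f1).wt μ c (rho F ln p lam c ω)) ≤
      ∑ b : Bool, ∑ ω, (if lb ln p c ω = some b ∧ Pd μ ln p τ E ω (Prm.sy c.1) (Prm.js c.1)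
        then μ ω else 0) := by
  set C := cols F ln p lam f f0 f1 with hC
  have h3 : ∀ b : Bool, ∑ ω, μ ω * (C.wt μ c (C.ρ c ω) *
        (if cd μ ln p τ E c b (C.ρ c ω).2.1 then (1 : ℝ) else 0)) ≤
      ∑ ω, (if lb ln p c ω = some b ∧ Pd μ ln p τ E ω (Prm.sy c.1) (Prm.js c.1)
        then μ ω else 0) := by
    intro b
    refine (sum_wt_le C hμ c b (fun r => if cd μ ln p τ E c b r.2.1 then (1 : ℝ) else 0)
      (fun r => by split_ifs <;> norm_num)).trans ?_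
    refine sum_le_sum fun ω _ => ?_
    by_cases h4 : C.E c ω = some b
    · rw [if_pos h4]
      by_cases h5 : cd μ ln p τ E c b (C.ρ c ω).2.1
      · rw [if_pos h5, mul_one, if_pos]
        exact ⟨h4, Pd_of_cd h4 h5⟩
      · rw [if_neg h5, mul_zero]
        split_ifs
        · exact hμ.nonneg ω
        · exact le_rfl
    · rw [if_neg h4]
      split_ifs
      · exact hμ.nonneg ω
      · exact le_rfl
  refine le_trans ?_ (sum_le_sum fun b _ => h3 b)
  rw [sum_comm]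
  refine sum_le_sum fun ω _ => ?_
  rw [← mul_sum]
  refine mul_le_mul_of_nonneg_left ?_ (hμ.nonneg ω)
  have hw : 0 ≤ C.wt μ c (C.ρ c ω) := Cols.wt_nonneg hμ c _
  have hnn : ∀ b ∈ (univ : Finset Bool), 0 ≤ C.wt μ c (C.ρ c ω) *
      (if cd μ ln p τ E c b (C.ρ c ω).2.1 then (1 : ℝ) else 0) := by
    intro b _
    refine mul_nonneg hw ?_
    split_ifs <;> norm_num
  by_cases h4 : crs μ ln p τ c (Prm.S c.1 (ln ω))
  · rw [if_pos h4]
    exact sum_nonneg hnn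
  · rw [if_neg h4]
    rcases hw.eq_or_lt with h5 | h5
    · have h6 : C.wt μ c (rho F ln p lam c ω) = 0 := h5.symm
      rw [h6]
      exact sum_nonneg hnn
    · unfold crs at h4
      push Not at h4
      obtain ⟨b, hb⟩ := h4
      have h6 : cd μ ln p τ E c b (C.ρ c ω).2.1 := ⟨hrel ω h5, hb⟩
      have h7 := single_le_sum hnn (mem_univ b)
      rw [if_pos h6, mul_one] at h7
      exact h7

open Classical in
/-- **the loss of the total weight** is at most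
`nT * (4 * 2 ^ PP * (PP * (E / log (1 / τ) + 1)))` -/
theorem J_fc (hμ : IsProb μ) (hτ : 0 < τ) (hτ1 : τ < 1) {E : ℝ} (hE : 0 ≤ E) (hPP : 0 < p.PP)
    (hrel : ∀ c ω, 0 < (cols F ln p lam f f0 f1).wt μ c (rho F ln p lam c ω) →
      exp (-E) ≤ Pr μ (fun ω => Prm.S c.1 (ln ω)) (Prm.S c.1 (ln ω))) :
    (cols F ln p lam f f0 f1).J μ ≤
      (cols F ln p lam (fc μ ln p τ f) (fc_nonneg f0) (fc_le_one f0 f1)).J μ +
        p.nT * (4 * 2 ^ p.PP * (p.PP * (E / log (1 / τ) + 1))) := by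
  have hwt : ∀ c r, (cols F ln p lam f f0 f1).wt μ c r =
      (cols F ln p lam (fc μ ln p τ f) (fc_nonneg f0) (fc_le_one f0 f1)).wt μ c r +
        (if crs μ ln p τ c r.2.1 then 0 else (cols F ln p lam f f0 f1).wt μ c r) := by
    intro c r
    have h1 : (cols F ln p lam (fc μ ln p τ f) (fc_nonneg f0) (fc_le_one f0 f1)).wt μ c r =
      fc μ ln p τ f c r * (cols F ln p lam f f0 f1).pi μ c r := rfl
    have h2 : (cols F ln p lam f f0 f1).wt μ c r = f c r * (cols F ln p lam f f0 f1).pi μ c r := rfl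
    rw [h1, h2]
    unfold fc
    split_ifs <;> ring
  have h1 : (cols F ln p lam f f0 f1).J μ =
      (cols F ln p lam (fc μ ln p τ f) (fc_nonneg f0) (fc_le_one f0 f1)).J μ + ∑ c, ∑ ω, μ ω *
      (if crs μ ln p τ c (Prm.S c.1 (ln ω)) then 0 else
        (cols F ln p lam f f0 f1).wt μ c (rho F ln p lam c ω)) := by
    unfold Cols.J
    rw [← sum_add_distrib]
    refine sum_congr rfl fun c _ => ?_
    rw [← sum_add_distrib]
    refine sum_congr rfl fun ω _ => ?_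
    rw [← mul_add]
    congr 1
    exact hwt c (rho F ln p lam c ω)
  have h4 : ∀ (ω : Ω) (b : Bool),
      (#{c : p.Col | lb ln p c ω = some b ∧ Pd μ ln p τ E ω (Prm.sy c.1) (Prm.js c.1)} : ℝ) ≤
        p.nT * (2 * 2 ^ p.PP * (p.PP * (E / log (1 / τ) + 1))) := by
    intro ω b
    refine card_cols ω b (Pd μ ln p τ E ω) fun a A hA => ?_
    exact card_steps (ms_anti hμ a ω) (ms_le_one hμ a ω) hτ hτ1 hE hPP A
      (fun j hj => (hA j hj).2) (fun j hj => (hA j hj).1)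
  have h5 := sum_ind_le hμ (fun (c : p.Col) (b : Bool) (ω : Ω) =>
    lb ln p c ω = some b ∧ Pd μ ln p τ E ω (Prm.sy c.1) (Prm.js c.1)) h4
  have h6 : ∑ c, ∑ ω, μ ω * (if crs μ ln p τ c (Prm.S c.1 (ln ω)) then 0 else
        (cols F ln p lam f f0 f1).wt μ c (rho F ln p lam c ω)) ≤
      ∑ c, ∑ b : Bool, ∑ ω, (if lb ln p c ω = some b ∧
        Pd μ ln p τ E ω (Prm.sy c.1) (Prm.js c.1) then μ ω else 0) :=
    sum_le_sum fun c _ => loss_col hμ c (hrel c)
  rw [h1]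
  linarith

end loss

/-! ## Active columns of a line -/

section active

variable {f0 : ∀ k r, 0 ≤ f k r} {f1 : ∀ k r, f k r ≤ 1}

/-- a positive restricted weight: the coarse shares are large and the original weight is positive -/
lemma wt_fc_pos {c : p.Col} {r : (ℕ × Lab) × ℤ × ℤ}
    (h : 0 < (cols F ln p lam (fc μ ln p τ f) (fc_nonneg f0) (fc_le_one f0 f1)).wt μ c r) :
    crs μ ln p τ c r.2.1 ∧ 0 < (cols F ln p lam f f0 f1).wt μ c r := by
  have h1 : (cols F ln p lam (fc μ ln p τ f) (fc_nonneg f0) (fc_le_one f0 f1)).wt μ c r =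
      fc μ ln p τ f c r * (cols F ln p lam f f0 f1).pi μ c r := rfl
  have h2 : (cols F ln p lam f f0 f1).wt μ c r = f c r * (cols F ln p lam f f0 f1).pi μ c r := rfl
  rw [h1] at h
  rw [h2]
  unfold fc at h
  split_ifs at h with h3
  · exact ⟨h3, h⟩
  · rw [zero_mul] at h
    exact absurd h (lt_irrefl _)

/-- **the label masses** in the coarse cell of a box of positive weight (input of the content
bound) -/
lemma label_mass {E : ℝ} (hτ : 0 < τ)
    (hrel : ∀ c ω, 0 < (cols F ln p lam f f0 f1).wt μ c (rho F ln p lam c ω) →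
      exp (-E) ≤ Pr μ (fun ω => Prm.S c.1 (ln ω)) (Prm.S c.1 (ln ω))) {c : p.Col} {ω : Ω}
    (h : 0 < (cols F ln p lam (fc μ ln p τ f) (fc_nonneg f0) (fc_le_one f0 f1)).wt μ c
      (rho F ln p lam c ω)) (b : Bool) :
    τ * exp (-E) ≤ Pr μ (fun ω => (lb ln p c ω, Prm.S c.1 (ln ω))) (some b, Prm.S c.1 (ln ω)) := by
  obtain ⟨h1, h2⟩ := wt_fc_pos h
  exact (mul_le_mul_of_nonneg_left (hrel c ω h2) hτ.le).trans (h1 b)

/-- the own block leaves at least a share `τ` of the slope cell to the other block -/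
lemma own_block_le (hμ : IsProb μ) {c : p.Col} {ω : Ω} {b : Bool}
    (hb : lb ln p c ω = some b) (hc : crs μ ln p τ c (Prm.S c.1 (ln ω))) :
    ms μ p ln (Prm.sy c.1) ω (Prm.js c.1 + p.PP) ≤
      (1 - τ) * ms μ p ln (Prm.sy c.1) ω (Prm.js c.1) := by
  classical
  rw [← Pr_block hb]
  have h1 := hc (!b)
  have h2 : Pr μ (fun ω => (lb ln p c ω, Prm.S c.1 (ln ω))) (some b, Prm.S c.1 (ln ω)) +
      Pr μ (fun ω => (lb ln p c ω, Prm.S c.1 (ln ω))) (some (!b), Prm.S c.1 (ln ω)) ≤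
      Pr μ (fun ω => Prm.S c.1 (ln ω)) (Prm.S c.1 (ln ω)) := by
    unfold Pr
    rw [← sum_add_distrib]
    refine sum_le_sum fun ω' _ => ?_
    have h0 := hμ.nonneg ω'
    by_cases h3 : Prm.S c.1 (ln ω') = Prm.S c.1 (ln ω)
    · rcases h4 : lb ln p c ω' with _ | b'
      · simp [h3, h4, h0]
      · cases b <;> cases b' <;> simp [h3, h4]
    · simp [h3]
  have h5 : Pr μ (fun ω => Prm.S c.1 (ln ω)) (Prm.S c.1 (ln ω)) =
      ms μ p ln (Prm.sy c.1) ω (Prm.js c.1) := rfl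
  rw [h5] at h1 h2
  linarith

/-- a line can be active in a column -/
def Act (μ : Ω → ℝ) (ln : Ω → Pt) (p : Prm) (τ E : ℝ) (c : p.Col) (ω : Ω) : Prop :=
  (∃ b, lb ln p c ω = some b) ∧ crs μ ln p τ c (Prm.S c.1 (ln ω)) ∧
    exp (-E) ≤ Pr μ (fun ω => Prm.S c.1 (ln ω)) (Prm.S c.1 (ln ω))

lemma Act_congr {E : ℝ} {c : p.Col} {ω ω' : Ω} (h : ln ω' = ln ω)
    (ha : Act μ ln p τ E c ω') : Act μ ln p τ E c ω := by
  obtain ⟨⟨b, h1⟩, h2, h3⟩ := ha
  rw [h] at h2 h3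
  refine ⟨⟨b, ?_⟩, h2, h3⟩
  rw [← h1]
  unfold lb
  rw [h]

open Classical in
/-- **the number of columns in which a line can be active** is at most
`nT * (4 * 2 ^ PP * (PP * (E / τ + 1)))` -/
theorem card_act (hμ : IsProb μ) (hτ : 0 < τ) (hτ1 : τ < 1) {E : ℝ} (hE : 0 ≤ E)
    (hPP : 0 < p.PP) (ω : Ω) :
    (#{c : p.Col | Act μ ln p τ E c ω} : ℝ) ≤ p.nT * (4 * 2 ^ p.PP * (p.PP * (E / τ + 1))) := by
  have h1 : ∀ b : Bool, (#{c : p.Col | lb ln p c ω = some b ∧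
      (exp (-E) ≤ ms μ p ln (Prm.sy c.1) ω (Prm.js c.1) ∧
        ms μ p ln (Prm.sy c.1) ω (Prm.js c.1 + p.PP) ≤
          (1 - τ) * ms μ p ln (Prm.sy c.1) ω (Prm.js c.1))} : ℝ) ≤
      p.nT * (2 * 2 ^ p.PP * (p.PP * (E / τ + 1))) := by
    intro b
    refine card_cols ω b (fun a j => exp (-E) ≤ ms μ p ln a ω j ∧
      ms μ p ln a ω (j + p.PP) ≤ (1 - τ) * ms μ p ln a ω j) fun a A hA => ?_
    have h2 := card_steps (ms_anti hμ a ω) (ms_le_one hμ a ω) (show 0 < 1 - τ by linarith)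
      (by linarith) hE hPP A (fun j hj => (hA j hj).2) (fun j hj => (hA j hj).1)
    have h3 := div_log_le hτ hτ1 hE
    refine h2.trans (mul_le_mul_of_nonneg_left ?_ (Nat.cast_nonneg _))
    linarith
  have h2 : #{c : p.Col | Act μ ln p τ E c ω} ≤
      ∑ b : Bool, #{c : p.Col | lb ln p c ω = some b ∧
      (exp (-E) ≤ ms μ p ln (Prm.sy c.1) ω (Prm.js c.1) ∧
        ms μ p ln (Prm.sy c.1) ω (Prm.js c.1 + p.PP) ≤
          (1 - τ) * ms μ p ln (Prm.sy c.1) ω (Prm.js c.1))} := by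
    refine (card_le_card ?_).trans card_biUnion_le
    intro c hc
    obtain ⟨⟨b, hb⟩, h3, h4⟩ := (mem_filter.1 hc).2
    exact mem_biUnion.2 ⟨b, mem_univ _, mem_filter.2 ⟨mem_univ _, hb, h4,
      own_block_le hμ hb h3⟩⟩
  calc (#{c : p.Col | Act μ ln p τ E c ω} : ℝ) ≤
      ((∑ b : Bool, #{c : p.Col | lb ln p c ω = some b ∧
      (exp (-E) ≤ ms μ p ln (Prm.sy c.1) ω (Prm.js c.1) ∧
        ms μ p ln (Prm.sy c.1) ω (Prm.js c.1 + p.PP) ≤
          (1 - τ) * ms μ p ln (Prm.sy c.1) ω (Prm.js c.1))} : ℕ) : ℝ) := by exact_mod_cast h2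
    _ = ∑ b : Bool, (#{c : p.Col | lb ln p c ω = some b ∧
      (exp (-E) ≤ ms μ p ln (Prm.sy c.1) ω (Prm.js c.1) ∧
        ms μ p ln (Prm.sy c.1) ω (Prm.js c.1 + p.PP) ≤
          (1 - τ) * ms μ p ln (Prm.sy c.1) ω (Prm.js c.1))} : ℝ) := by push_cast; rfl
    _ ≤ ∑ _b : Bool, p.nT * (2 * 2 ^ p.PP * (p.PP * (E / τ + 1))) :=
        sum_le_sum fun b _ => h1 b
    _ = p.nT * (4 * 2 ^ p.PP * (p.PP * (E / τ + 1))) := by
        simp only [Fintype.sum_bool]
        ring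

/-- a flag with positive `Q`-mass is active -/
lemma act_of_Q_pos (hμ : IsProb μ) {E : ℝ}
    (hrel : ∀ c ω, 0 < (cols F ln p lam f f0 f1).wt μ c (rho F ln p lam c ω) →
      exp (-E) ≤ Pr μ (fun ω => Prm.S c.1 (ln ω)) (Prm.S c.1 (ln ω))) {t : p.Col × Ω}
    (h : 0 < (cols F ln p lam (fc μ ln p τ f) (fc_nonneg f0) (fc_le_one f0 f1)).Q μ t) :
    Act μ ln p τ E t.1 t.2 := by
  obtain ⟨h1, h2⟩ := wt_fc_pos (Cols.wt_pos_of_Q_pos hμ h)
  refine ⟨?_, h1, hrel _ _ h2⟩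
  by_contra hcon
  push Not at hcon
  have h3 : lb ln p t.1 t.2 = none := by
    rcases h4 : lb ln p t.1 t.2 with _ | b
    · rfl
    · exact absurd h4 (hcon b)
  have h4 : (cols F ln p lam (fc μ ln p τ f) (fc_nonneg f0) (fc_le_one f0 f1)).Q μ t = 0 := by
    unfold Cols.Q Cols.dens
    have h5 : (cols F ln p lam (fc μ ln p τ f) (fc_nonneg f0) (fc_le_one f0 f1)).E t.1 t.2 =
      none := h3
    rw [h5]
    simp
  rw [h4] at h
  exact lt_irrefl _ h

/-- a flag with positive `Qs`-mass is active -/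
lemma act_of_Qs_pos (hμ : IsProb μ) {E : ℝ}
    (hrel : ∀ c ω, 0 < (cols F ln p lam f f0 f1).wt μ c (rho F ln p lam c ω) →
      exp (-E) ≤ Pr μ (fun ω => Prm.S c.1 (ln ω)) (Prm.S c.1 (ln ω)))
    {s : p.Col → (ℕ × Lab) × ℤ × ℤ → Bool} {t : p.Col × Ω}
    (h : 0 < (cols F ln p lam (fc μ ln p τ f) (fc_nonneg f0) (fc_le_one f0 f1)).Qs μ s t) :
    Act μ ln p τ E t.1 t.2 := by
  unfold Cols.Qs at h
  split_ifs at h with h1
  · exact act_of_Q_pos hμ hrel (by linarith)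
  · exact absurd h (lt_irrefl _)

/-- membership in a filter, the decidability instance as an explicit argument -/
lemma of_mem_filter {α : Type*} (P : α → Prop) (inst : DecidablePred P) (s : Finset α) (a : α)
    (h : a ∈ @Finset.filter α P inst s) : P a := (mem_filter.1 h).2

/-- **input `hN`** of the transfer theorems: any law on columns and flags which is supported on
active pairs; `A` any set of columns in which the line is active -/
theorem card_active (hμ : IsProb μ) (hτ : 0 < τ) (hτ1 : τ < 1) {E : ℝ} (hE : 0 ≤ E)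
    (hPP : 0 < p.PP) {q : p.Col × Ω → ℝ} (hact : ∀ t, 0 < q t → Act μ ln p τ E t.1 t.2)
    {N₁ : ℕ} (hN₁ : 4 * 2 ^ p.PP * (p.PP * (E / τ + 1)) ≤ N₁) (ω : Ω) (A : Finset p.Col)
    (hA : ∀ c ∈ A, ∃ ω', ln ω' = ln ω ∧ 0 < q (c, ω')) :
    #A ≤ p.nT * N₁ := by
  classical
  have h1 := card_act (ln := ln) (p := p) hμ hτ hτ1 hE hPP ω
  have h2 : #A ≤ #{c : p.Col | Act μ ln p τ E c ω} := by
    refine card_le_card fun c hc => ?_
    obtain ⟨ω', h3, h4⟩ := hA c hc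
    exact mem_filter.2 ⟨mem_univ _, Act_congr h3 (hact (c, ω') h4)⟩
  have h3 : (#A : ℝ) ≤ ((p.nT * N₁ : ℕ) : ℝ) := by
    push_cast
    refine (Nat.cast_le.2 h2).trans ?_
    refine h1.trans ?_
    exact mul_le_mul_of_nonneg_left hN₁ (Nat.cast_nonneg _)
  exact_mod_cast h3

/-- **input `hG`** of the bookkeeping theorem: growth along the lines.
`ν` is the unconditioned law, `μ ≤ cν ν`; `J₀` a lower bound for the mean weight per offset. -/
theorem hG [Nonempty Ω] (hμ : IsProb μ) {ν : Ω → ℝ} (hν : IsProb ν) {cν : ℝ} (hcν : 0 < cν)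
    (hμν : ∀ ω, μ ω ≤ cν * ν ω) (hτ : 0 < τ) (hτ1 : τ < 1) {E : ℝ} (hE : 0 ≤ E)
    (hPP : 0 < p.PP)
    (hrel : ∀ c ω, 0 < (cols F ln p lam f f0 f1).wt μ c (rho F ln p lam c ω) →
      exp (-E) ≤ Pr μ (fun ω => Prm.S c.1 (ln ω)) (Prm.S c.1 (ln ω)))
    (s : p.Col → (ℕ × Lab) × ℤ × ℤ → Bool) {J₀ : ℝ} (hJ₀ : 0 < J₀)
    (hJ : p.nT * J₀ ≤
      (cols F ln p lam (fc μ ln p τ f) (fc_nonneg f0) (fc_le_one f0 f1)).J μ)
    {N₁ : ℕ} (hN₁ : 4 * 2 ^ p.PP * (p.PP * (E / τ + 1)) ≤ N₁) {G₀ : ℝ}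
    (hsur : ∀ ω, 0 < μ ω → G₀ ≤ - log (Pr ν (fun ω => (F.P.W F.n ω, ln ω))
      (F.P.W F.n ω, ln ω) / Pr ν ln (ln ω))) :
    G₀ - log (cν * N₁ / J₀) ≤
      Hc ((cols F ln p lam (fc μ ln p τ f) (fc_nonneg f0) (fc_le_one f0 f1)).Qs μ s)
        (fun a => F.P.W F.n a.2) (fun a => (a.1, ln a.2)) := by
  set C := cols F ln p lam (fc μ ln p τ f) (fc_nonneg f0) (fc_le_one f0 f1) with hC
  have hnT : (0 : ℝ) < p.nT := Nat.cast_pos.2 p.nT_pos
  have hJpos : 0 < C.J μ := (mul_pos hnT hJ₀).trans_le hJ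
  have hq : IsProb (C.Qs μ s) := Cols.isProb_Qs hμ hJpos s
  have hc : 0 < cν / C.J μ := div_pos hcν hJpos
  have hle : ∀ t, C.Qs μ s t ≤ cν / C.J μ * ν t.2 := by
    intro t
    refine (Cols.Qs_le hμ s t).trans ?_
    rw [div_mul_eq_mul_div]
    exact div_le_div_of_nonneg_right (hμν t.2) hJpos.le
  have hact : ∀ t, 0 < C.Qs μ s t → Act μ ln p τ E t.1 t.2 := fun t ht =>
    act_of_Qs_pos hμ hrel ht
  have : Nonempty p.Col := by
    by_contra hcon
    rw [not_nonempty_iff] at hcon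
    have : C.J μ = 0 := by
      unfold Cols.J
      exact Fintype.sum_empty _
    linarith
  have h1 := H353.growth (κ := p.Col) hq hν hc hle (F.P.W F.n) ln (p.nT * N₁)
    (fun ω _ => card_active hμ hτ hτ1 hE hPP hact hN₁ ω _ fun c hc =>
      of_mem_filter (fun k : p.Col => ∃ ω', ln ω' = ln ω ∧ 0 < C.Qs μ s (k, ω')) _ _ c hc)
    (s := G₀) (by
    intro t ht
    refine hsur t.2 ?_
    have h2 := ht.trans_le (Cols.Qs_le hμ s t)
    rcases (hμ.nonneg t.2).eq_or_lt with h3 | h3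
    · rw [← h3, zero_div] at h2
      exact absurd h2 (lt_irrefl _)
    · exact h3)
  have hN₁pos : (0 : ℝ) < N₁ := by
    refine lt_of_lt_of_le ?_ hN₁
    positivity
  have h2 : log (cν / C.J μ * ((p.nT * N₁ : ℕ) : ℝ)) ≤ log (cν * N₁ / J₀) := by
    refine log_le_log (mul_pos hc (by push_cast; positivity)) ?_
    push_cast
    rw [div_mul_eq_mul_div, div_le_div_iff₀ hJpos hJ₀]
    have h3 : cν * (p.nT * N₁) * J₀ = cν * N₁ * (p.nT * J₀) := by ring
    rw [h3]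
    exact mul_le_mul_of_nonneg_left hJ (by positivity)
  linarith

end active

end Vale.Agent.P065.H649
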