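import Vale.Agent.P065.H649.NearRow
import Vale.Agent.P065.H562.ThinDef

/-!
# P065, near rows on the frame in the names of H562/ThinDef (helper649)
-/

set_option autoImplicit false

open Finset Real

noncomputable section

namespace Vale.Agent.P065.H649

open Vale.Agent.P065.UB Vale.Agent.P065.Ent Vale.Agent.P065.H154 Vale.Agent.P065.H562

variable {Ω : Type*} [Fintype Ω] {F : Fr Ω} {ln : Ω → Pt} {p : Prm} {Lab : Type*}

omit [Fintype Ω] in
lemma deepT_iff (a t : ℕ) (z : p.Col × Ω) : DeepT F ln a t z ↔ Deepn F ln p 1 (a - 1) t z := Iff.rfl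

omit [Fintype Ω] in
lemma midT_iff (a t : ℕ) (z : p.Col × Ω) : MidT F ln a t z ↔ Midn F ln p 1 (a - 1) t z := Iff.rfl

lemma MB_midT (q : p.Col × Ω → ℝ) (u : ℝ) (a t : ℕ) (z : p.Col × Ω) :
    MB q (Rt F ln p u a t) (Rt F ln p u a t z) (MidT F ln a t) = midM F ln p q u a 1 t z := by
  classical
  unfold MB midM H279.ms
  rw [PE_def]
  refine sum_congr rfl fun z' _ => ?_
  by_cases h : Rt F ln p u a t z' = Rt F ln p u a t z ∧ MidT F ln a t z'
  · rw [if_pos h]
    exact (if_pos h).symm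
  · rw [if_neg h]
    exact (if_neg h).symm

open Classical in
/-- **Near rows, own side** -/
theorem near_deepT {q : p.Col × Ω → ℝ} (hq : IsProb q) (h : LPer F p q) (hM : F.Tm ≤ p.M) (u : ℝ)
    {a : ℕ} (h1 : 1 ≤ a) (ha : a ≤ p.Γ) (T : ℕ) (lam : Ω → Lab) :
    ∑ z, q z * ∑ t ∈ range T,
      (if t < F.T' z.2 ∧ ¬ DeepT F ln a t z then
        log (Pr q (Rt F ln p u a t) (Rt F ln p u a t z) /
          Pr q (fun z => (F.D u (t + 1) z.2, Rt F ln p u a t z))
            (F.D u (t + 1) z.2, Rt F ln p u a t z)) else 0) ≤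
      4 * (2 ^ (a - 1) : ℝ)⁻¹ * Hc q (rb F ln p lam) (fun z => z.1) := by
  exact near_deep (ln := ln) hq h hM u h1 ha T lam

open Classical in
/-- **The middle part of the row** -/
theorem mid_rowT {q : p.Col × Ω → ℝ} (hq : IsProb q) (h : LPer F p q) (hM : F.Tm ≤ p.M) (u : ℝ)
    {a : ℕ} (h1 : 1 < a) (ha : a ≤ p.Γ) (T : ℕ) (lam : Ω → Lab) (act : ℕ → Ω → Prop)
    (hact : ∀ t y, act t y → ∃ ω, F.D u t ω = F.D u t y ∧ F.P.x ω ≠ F.P.x y) :
    ∑ z, q z * ∑ t ∈ range T,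
      (if act t z.2 ∧ DeepT F ln a t z then
        log (Pr q (Rt F ln p u a t) (Rt F ln p u a t z) /
          MB q (Rt F ln p u a t) (Rt F ln p u a t z) (MidT F ln a t)) else 0) ≤
      2 * ((a - 1 : ℕ) : ℝ) * (2 ^ (a - 1) : ℝ)⁻¹ * Hc q (rb F ln p lam) (fun z => z.1) := by
  refine le_trans (le_of_eq ?_) (mid_row (ln := ln) hq h hM u h1 ha T lam act hact)
  refine sum_congr rfl fun z _ => ?_
  congr 1
  refine sum_congr rfl fun t _ => ?_
  rw [MB_midT]
  by_cases hc : act t z.2 ∧ DeepT F ln a t z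
  · rw [if_pos hc]
    exact (if_pos hc).symm
  · rw [if_neg hc]
    exact (if_neg hc).symm

end Vale.Agent.P065.H649
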