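import Vale.Agent.P065.UB.WLov

/-!
# P065: the weighted selection lemma (helper649)

`net`: a point enters and leaves the lowest points alternately. `wflow`: if `f` does not decrease
along the `k`-edges of a window, the total increase is at most `#Tch` times the range of `f`.
`wsl`: classes of points which are convex for the crossing order, with weights whose sum along
every chain of the crossing order is at most `Y`: the weighted number of boundary edges is at most
`2 Y #Tch`.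
-/

set_option autoImplicit false

namespace Vale.Agent.P065.H649

open Finset Vale.Agent.P065.UB Vale.Agent.P065.UB.RankAux

variable {P : Finset Pt} {k : ℕ} {I : Set ℝ}

theorem mem_EdI {p q : Pt} : (p, q) ∈ EdIn P k P I ↔ (p, q) ∈ Ed P k ∧ sl p q ∈ I := by
  rw [mem_EdIn]
  constructor
  · rintro ⟨h1, _, _, h2⟩; exact ⟨h1, h2⟩
  · rintro ⟨h1, h2⟩; exact ⟨h1, (mem_Ed.1 h1).1, (mem_Ed.1 h1).2.1, h2⟩

theorem fst_ne_snd {p q : Pt} (h : (p, q) ∈ Ed P k) : p ≠ q := fun h0 => by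
  have := (mem_Ed.1 h).2.2.1
  rw [h0] at this
  exact lt_irrefl _ this

open Classical in
theorem card_single (L : Finset Pt) (v : Pt) {X : Set Pt} (hX : ∀ u, u ∈ X ↔ u = v) :
    #{u ∈ L | u ∈ X} = if v ∈ L then 1 else 0 := by
  split_ifs with h
  · rw [Finset.card_eq_one]
    refine ⟨v, ?_⟩
    ext u
    simp only [Finset.mem_filter, hX, Finset.mem_singleton]
    constructor
    · exact fun h1 => h1.2
    · rintro rfl; exact ⟨h, rfl⟩
  · rw [Finset.card_eq_zero, Finset.filter_eq_empty_iff]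
    intro u hu h1
    rw [hX] at h1
    exact h (h1 ▸ hu)

open Classical in
/-- a point enters and leaves the lowest points alternately -/
theorem net (hP : Good P) (hI : I.OrdConnected) (v : Pt) :
    #{e ∈ EdIn P k P I | e.2 = v} ≤ #{e ∈ EdIn P k P I | e.1 = v} + 1 ∧
    #{e ∈ EdIn P k P I | e.1 = v} ≤ #{e ∈ EdIn P k P I | e.2 = v} + 1 := by
  set F := EdIn P k P I with hF
  rcases F.eq_empty_or_nonempty with hE | hE
  · rw [hE]; simp
  obtain ⟨⟨p₀, q₀⟩, h₀, hmin⟩ := F.exists_min_image (fun e => sl e.1 e.2) hE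
  obtain ⟨⟨p₁, q₁⟩, h₁, hmax⟩ := F.exists_max_image (fun e => sl e.1 e.2) hE
  have e₀ := mem_EdI.1 h₀
  have e₁ := mem_EdI.1 h₁
  rcases (hmin _ h₁ : sl p₀ q₀ ≤ sl p₁ q₁).lt_or_eq with hlt | heq
  · obtain ⟨l1, _, l3, _⟩ := low_of_edge hP e₀.1
    obtain ⟨_, l2, _, l4⟩ := low_of_edge hP e₁.1
    obtain ⟨X, hX⟩ : ∃ X : Set Pt, ∀ u, u ∈ X ↔ u = v := ⟨{v}, fun _ => Iff.rfl⟩
    have key := flow hP X l2 l4 _ (sl p₀ q₀) _ (Nat.lt_succ_self _) hlt l1 l3
    rw [card_single _ v hX, card_single _ v hX] at key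
    set M : Finset (Pt × Pt) := {e ∈ F | sl p₀ q₀ < sl e.1 e.2 ∧ sl e.1 e.2 < sl p₁ q₁} with hM
    have hFM : F = insert (p₀, q₀) (insert (p₁, q₁) M) := by
      ext ⟨p, q⟩
      simp only [Finset.mem_insert, hM, Finset.mem_filter]
      constructor
      · intro he
        rcases (hmin _ he : sl p₀ q₀ ≤ sl p q).lt_or_eq with h3 | h3
        · rcases (hmax _ he : sl p q ≤ sl p₁ q₁).lt_or_eq with h4 | h4
          · exact Or.inr (Or.inr ⟨he, h3, h4⟩)
          · obtain ⟨h5, h6⟩ := Ed_unique hP (mem_EdI.1 he).1 e₁.1 h4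
            rw [h5, h6]; exact Or.inr (Or.inl rfl)
        · obtain ⟨h5, h6⟩ := Ed_unique hP (mem_EdI.1 he).1 e₀.1 h3.symm
          rw [h5, h6]; exact Or.inl rfl
      · rintro (h | h | h)
        · rw [h]; exact h₀
        · rw [h]; exact h₁
        · exact h.1
    have hn1 : (p₁, q₁) ∉ M := fun h => lt_irrefl _ (Finset.mem_filter.1 h).2.2
    have hn0 : (p₀, q₀) ∉ insert (p₁, q₁) M := by
      intro h
      rcases Finset.mem_insert.1 h with h | h
      · rw [Prod.mk.injEq] at h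
        rw [h.1, h.2] at hlt
        exact lt_irrefl _ hlt
      · exact lt_irrefl _ (Finset.mem_filter.1 h).2.1
    have cnt : ∀ (f : Pt × Pt → Prop) [DecidablePred f], #{e ∈ F | f e} = #{e ∈ M | f e} +
        (if f (p₁, q₁) then 1 else 0) + (if f (p₀, q₀) then 1 else 0) := by
      intro f _
      rw [hFM, Finset.filter_insert, Finset.filter_insert]
      split_ifs with h1 h2 h2
      · rw [Finset.card_insert_of_notMem, Finset.card_insert_of_notMem]
        · exact fun h => hn1 (Finset.mem_filter.1 h).1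
        · intro h
          rcases Finset.mem_insert.1 h with h | h
          · exact hn0 (Finset.mem_insert.2 (Or.inl h))
          · exact hn0 (Finset.mem_insert_of_mem (Finset.mem_filter.1 h).1)
      · rw [Finset.card_insert_of_notMem, Nat.add_zero]
        intro h
        exact hn0 (Finset.mem_insert_of_mem (Finset.mem_filter.1 h).1)
      · rw [Finset.card_insert_of_notMem, Nat.add_zero]
        exact fun h => hn1 (Finset.mem_filter.1 h).1
      · rfl
    have hOut : #(OutE P k X (sl p₀ q₀) (sl p₁ q₁)) = #{e ∈ M | e.1 = v} := by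
      congr 1
      ext ⟨p, q⟩
      unfold OutE
      simp only [Finset.mem_filter, hM, hX]
      constructor
      · rintro ⟨h1, ⟨h2, _⟩, h3, h4⟩
        exact ⟨⟨mem_EdI.2 ⟨h1, hI.out e₀.2 e₁.2 ⟨h3.le, h4.le⟩⟩, h3, h4⟩, h2⟩
      · rintro ⟨⟨h1, h3, h4⟩, h2⟩
        have h5 := (mem_EdI.1 h1).1
        exact ⟨h5, ⟨h2, fun h6 => fst_ne_snd h5 (h2.trans h6.symm)⟩, h3, h4⟩
    have hIn : #(InE P k X (sl p₀ q₀) (sl p₁ q₁)) = #{e ∈ M | e.2 = v} := by
      congr 1
      ext ⟨p, q⟩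
      unfold InE
      simp only [Finset.mem_filter, hM, hX]
      constructor
      · rintro ⟨h1, ⟨_, h2⟩, h3, h4⟩
        exact ⟨⟨mem_EdI.2 ⟨h1, hI.out e₀.2 e₁.2 ⟨h3.le, h4.le⟩⟩, h3, h4⟩, h2⟩
      · rintro ⟨⟨h1, h3, h4⟩, h2⟩
        have h5 := (mem_EdI.1 h1).1
        exact ⟨h5, ⟨fun h6 => fst_ne_snd h5 (h6.trans h2.symm), h2⟩, h3, h4⟩
    rw [hOut, hIn] at key
    have c1 := cnt (fun e => e.1 = v)
    have c2 := cnt (fun e => e.2 = v)
    simp only at c1 c2
    rw [c1, c2]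
    set B₀ : Finset Pt := {u ∈ P | ht (sl p₀ q₀) u < ht (sl p₀ q₀) p₀} with hB₀
    set B₁ : Finset Pt := {u ∈ P | ht (sl p₁ q₁) u < ht (sl p₁ q₁) p₁} with hB₁
    have hx₀ := (mem_Ed.1 e₀.1).2.2.1
    have hx₁ := (mem_Ed.1 e₁.1).2.2.1
    have n0p : v ∈ B₀ → p₀ ≠ v := by
      rintro h rfl; exact lt_irrefl _ (Finset.mem_filter.1 h).2
    have n0q : v ∈ B₀ → q₀ ≠ v := by
      rintro h rfl
      have := (Finset.mem_filter.1 h).2
      rw [(ht_eq_iff hx₀ (sl p₀ q₀)).2 rfl] at this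
      exact lt_irrefl _ this
    have n1p : v ∈ B₁ → p₁ ≠ v := by
      rintro h rfl; exact lt_irrefl _ (Finset.mem_filter.1 h).2
    have n1q : v ∈ B₁ → q₁ ≠ v := by
      rintro h rfl
      have := (Finset.mem_filter.1 h).2
      rw [(ht_eq_iff hx₁ (sl p₁ q₁)).2 rfl] at this
      exact lt_irrefl _ this
    have k1 : (if v ∈ insert p₁ B₁ then 1 else 0 : ℕ) =
        (if p₁ = v then 1 else 0) + (if v ∈ B₁ then 1 else 0) := by
      by_cases h1 : p₁ = v
      · subst h1
        have : p₁ ∉ B₁ := fun h => n1p h rfl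
        simp [this]
      · by_cases h2 : v ∈ B₁ <;> simp [h1, h2, Ne.symm h1]
    have k0 : (if v ∈ insert q₀ B₀ then 1 else 0 : ℕ) =
        (if q₀ = v then 1 else 0) + (if v ∈ B₀ then 1 else 0) := by
      by_cases h1 : q₀ = v
      · subst h1
        have : q₀ ∉ B₀ := fun h => n0q h rfl
        simp [this]
      · by_cases h2 : v ∈ B₀ <;> simp [h1, h2, Ne.symm h1]
    rw [k1, k0] at key
    have m0 : (if v ∈ B₀ then 1 else 0 : ℕ) + (if p₀ = v then 1 else 0) ≤ 1 := by
      by_cases h : v ∈ B₀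
      · rw [if_neg (n0p h), if_pos h]
      · rw [if_neg h]; split_ifs <;> omega
    have m1 : (if v ∈ B₁ then 1 else 0 : ℕ) + (if q₁ = v then 1 else 0) ≤ 1 := by
      by_cases h : v ∈ B₁
      · rw [if_neg (n1q h), if_pos h]
      · rw [if_neg h]; split_ifs <;> omega
    omega
  · have hF1 : F = {(p₀, q₀)} := by
      ext ⟨p, q⟩
      rw [Finset.mem_singleton]
      constructor
      · intro he
        have h3 : sl p q = sl p₀ q₀ :=
          le_antisymm ((hmax _ he).trans heq.ge) (hmin _ he)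
        obtain ⟨h5, h6⟩ := Ed_unique hP (mem_EdI.1 he).1 e₀.1 h3
        rw [h5, h6]
      · intro h; rw [h]; exact h₀
    have : ∀ (f : Pt × Pt → Prop) [DecidablePred f], #{e ∈ F | f e} ≤ 1 := by
      intro f _
      refine (Finset.card_filter_le _ _).trans ?_
      rw [hF1, Finset.card_singleton]
    have a1 := this (fun e => e.1 = v)
    have a2 := this (fun e => e.2 = v)
    omega

open Classical in
/-- **weighted flow** -/
theorem wflow (hP : Good P) (hI : I.OrdConnected) (f : Pt → ℝ) {Y : ℝ}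
    (h0 : ∀ v ∈ P, |f v| ≤ Y) :
    ∑ e ∈ EdIn P k P I, (f e.2 - f e.1) ≤ Y * #(Tch P k P I) := by
  have e2 : ∑ e ∈ EdIn P k P I, f e.2 = ∑ v ∈ Tch P k P I, #{e ∈ EdIn P k P I | e.2 = v} * f v := by
    rw [← Finset.sum_fiberwise_of_maps_to (g := fun e : Pt × Pt => e.2) (t := Tch P k P I)]
    · refine Finset.sum_congr rfl fun v _ => ?_
      rw [← nsmul_eq_mul, ← Finset.sum_const]
      refine Finset.sum_congr rfl fun e he => ?_
      rw [(Finset.mem_filter.1 he).2]
    · intro e he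
      exact mem_Tch.2 ⟨(mem_Ed.1 (mem_EdI.1 he).1).2.1, e, he, Or.inr rfl⟩
  have e1 : ∑ e ∈ EdIn P k P I, f e.1 = ∑ v ∈ Tch P k P I, #{e ∈ EdIn P k P I | e.1 = v} * f v := by
    rw [← Finset.sum_fiberwise_of_maps_to (g := fun e : Pt × Pt => e.1) (t := Tch P k P I)]
    · refine Finset.sum_congr rfl fun v _ => ?_
      rw [← nsmul_eq_mul, ← Finset.sum_const]
      refine Finset.sum_congr rfl fun e he => ?_
      rw [(Finset.mem_filter.1 he).2]
    · intro e he
      exact mem_Tch.2 ⟨(mem_Ed.1 (mem_EdI.1 he).1).1, e, he, Or.inl rfl⟩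
  rw [Finset.sum_sub_distrib, e2, e1, ← Finset.sum_sub_distrib]
  calc ∑ v ∈ Tch P k P I, ((#{e ∈ EdIn P k P I | e.2 = v} : ℝ) * f v -
        #{e ∈ EdIn P k P I | e.1 = v} * f v) ≤ ∑ v ∈ Tch P k P I, Y := by
        refine Finset.sum_le_sum fun v hv => ?_
        obtain ⟨n1, n2⟩ := net (k := k) hP hI v
        have n1' : (#{e ∈ EdIn P k P I | e.2 = v} : ℝ) ≤ #{e ∈ EdIn P k P I | e.1 = v} + 1 := by
          exact_mod_cast n1
        have n2' : (#{e ∈ EdIn P k P I | e.1 = v} : ℝ) ≤ #{e ∈ EdIn P k P I | e.2 = v} + 1 := by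
          exact_mod_cast n2
        rw [← sub_mul]
        refine (le_abs_self _).trans ?_
        rw [abs_mul]
        have : |(#{e ∈ EdIn P k P I | e.2 = v} : ℝ) - #{e ∈ EdIn P k P I | e.1 = v}| ≤ 1 := by
          rw [abs_le]; constructor <;> linarith
        have h3 := h0 v (Tch_subset P k P I hv)
        calc |(#{e ∈ EdIn P k P I | e.2 = v} : ℝ) - #{e ∈ EdIn P k P I | e.1 = v}| * |f v|
            ≤ 1 * |f v| := mul_le_mul_of_nonneg_right this (abs_nonneg _)
          _ ≤ Y := by rw [one_mul]; exact h3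
    _ = Y * #(Tch P k P I) := by rw [Finset.sum_const, nsmul_eq_mul, mul_comm]

/-- a chain of the relation `r` -/
def IsCh (r : Pt → Pt → Prop) (C : Finset Pt) : Prop :=
  ∀ u ∈ C, ∀ v ∈ C, u ≠ v → r u v ∨ r v u

open Classical in
/-- the chains in `P` which start at `v` -/
noncomputable def Up (P : Finset Pt) (r : Pt → Pt → Prop) (v : Pt) : Finset (Finset Pt) :=
  {C ∈ P.powerset | v ∈ C ∧ IsCh r C ∧ ∀ u ∈ C, u ≠ v → r v u}

open Classical in
/-- the weight of the classes met by `C` -/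
noncomputable def wt {ι : Type*} (c : Pt → ι) (y : ι → ℝ) (C : Finset Pt) : ℝ :=
  ∑ i ∈ C.image c, y i

open Classical in
theorem exists_pot {ι : Type*} (c : Pt → ι) (y : ι → ℝ) (hy : ∀ i, 0 ≤ y i) {Y : ℝ}
    (r : Pt → Pt → Prop) (htr : ∀ u ∈ P, ∀ v ∈ P, ∀ w ∈ P, r u v → r v w → r u w)
    (hconv : ∀ u ∈ P, ∀ v ∈ P, ∀ w ∈ P, r u v → r v w → c u = c w → y (c u) ≠ 0 → c v = c u)
    (hch : ∀ C ⊆ P, IsCh r C → wt c y C ≤ Y) :
    ∃ G : Pt → ℝ, (∀ v ∈ P, 0 ≤ G v ∧ G v ≤ Y) ∧ ∀ p ∈ P, ∀ q ∈ P, r p q → p ≠ q → ¬ r q p →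
      G q + (if c p = c q then 0 else y (c p)) ≤ G p := by
  have hne : ∀ v ∈ P, ({v} : Finset Pt) ∈ Up P r v := by
    intro v hv
    unfold Up
    simp only [Finset.mem_filter, Finset.mem_powerset, Finset.singleton_subset_iff,
      Finset.mem_singleton, true_and, forall_eq, ne_eq, not_true_eq_false, false_implies, and_true]
    refine ⟨hv, ?_⟩
    intro a ha b hb hab
    rw [Finset.mem_singleton] at ha hb
    exact absurd (ha.trans hb.symm) hab
  refine ⟨fun v => if h : v ∈ P then (Up P r v).sup' ⟨_, hne v h⟩ (wt c y) else 0, ?_, ?_⟩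
  · intro v hv
    simp only [hv, dif_pos]
    constructor
    · refine le_trans ?_ (Finset.le_sup' (wt c y) (hne v hv))
      unfold wt
      exact Finset.sum_nonneg fun i _ => hy i
    · refine Finset.sup'_le _ _ fun C hC => ?_
      unfold Up at hC
      rw [Finset.mem_filter, Finset.mem_powerset] at hC
      exact hch C hC.1 hC.2.2.1
  · intro p hp q hq hpq hne' hnqp
    simp only [hp, hq, dif_pos]
    obtain ⟨C, hC, hCe⟩ := Finset.exists_mem_eq_sup' ⟨_, hne q hq⟩ (wt c y)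
    rw [hCe]
    have hC' := hC
    unfold Up at hC'
    rw [Finset.mem_filter, Finset.mem_powerset] at hC'
    obtain ⟨hCP, hqC, hCc, hCq⟩ := hC'
    have hpu : ∀ u ∈ C, r p u := by
      intro u hu
      by_cases h : u = q
      · rw [h]; exact hpq
      · exact htr p hp q hq u (hCP hu) hpq (hCq u hu h)
    have hmem : insert p C ∈ Up P r p := by
      unfold Up
      rw [Finset.mem_filter, Finset.mem_powerset]
      refine ⟨Finset.insert_subset hp hCP, Finset.mem_insert_self _ _, ?_, ?_⟩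
      · intro a ha b hb hab
        rcases Finset.mem_insert.1 ha with ha | ha
        · rcases Finset.mem_insert.1 hb with hb | hb
          · exact absurd (ha.trans hb.symm) hab
          · exact Or.inl (ha ▸ hpu b hb)
        · rcases Finset.mem_insert.1 hb with hb | hb
          · exact Or.inr (hb ▸ hpu a ha)
          · exact hCc a ha b hb hab
      · intro u hu hup
        rcases Finset.mem_insert.1 hu with h | h
        · exact absurd h hup
        · exact hpu u h
    refine le_trans ?_ (Finset.le_sup' (wt c y) hmem)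
    unfold wt
    rw [Finset.image_insert]
    split_ifs with h
    · rw [add_zero]
      exact Finset.sum_le_sum_of_subset_of_nonneg (Finset.subset_insert _ _) fun i _ _ => hy i
    · by_cases hmemc : c p ∈ C.image c
      · -- then the weight of the class of `p` is zero
        have hy0 : y (c p) = 0 := by
          by_contra hy0
          obtain ⟨u, hu, hcu⟩ := Finset.mem_image.1 hmemc
          by_cases huq : u = q
          · exact h (by rw [← hcu, huq])
          · exact h (hconv p hp q hq u (hCP hu) hpq (hCq u hu huq) hcu.symm hy0).symm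
        rw [hy0, add_zero]
        exact Finset.sum_le_sum_of_subset_of_nonneg (Finset.subset_insert _ _) fun i _ _ => hy i
      · rw [Finset.sum_insert hmemc, add_comm]

open Classical in
/-- **WSL, edge form.** -/
theorem wsl_edges (hP : Good P) (hI : I.OrdConnected) {ι : Type*} (c : Pt → ι) (y : ι → ℝ)
    (hy : ∀ i, 0 ≤ y i) {Y : ℝ} (r : Pt → Pt → Prop)
    (hrE : ∀ e ∈ EdIn P k P I, r e.1 e.2) (hrx : ∀ u ∈ P, ∀ v ∈ P, r u v → u.1 < v.1)
    (htr : ∀ u ∈ P, ∀ v ∈ P, ∀ w ∈ P, r u v → r v w → r u w)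
    (hconv : ∀ u ∈ P, ∀ v ∈ P, ∀ w ∈ P, r u v → r v w → c u = c w → y (c u) ≠ 0 → c v = c u)
    (hch : ∀ C ⊆ P, IsCh r C → wt c y C ≤ Y) :
    ∑ e ∈ EdIn P k P I, (if c e.1 = c e.2 then 0 else y (c e.1) + y (c e.2)) ≤
      2 * Y * #(Tch P k P I) := by
  obtain ⟨G, hG0, hG⟩ := exists_pot c y hy r htr hconv hch
  obtain ⟨G', hG0', hG'⟩ := exists_pot (P := P) c y hy (fun u v => r v u)
    (fun u hu v hv w hw h1 h2 => htr w hw v hv u hu h2 h1)
    (fun u hu v hv w hw h1 h2 h3 h4 => by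
      rw [h3]
      exact hconv w hw v hv u hu h2 h1 h3.symm (h3 ▸ h4))
    (fun C hC hCc => hch C hC fun u hu v hv huv => (hCc u hu v hv huv).symm)
  have w1 := wflow (k := k) hP hI (fun v => - G v) (Y := Y) (fun v hv => by
    rw [abs_neg, abs_of_nonneg (hG0 v hv).1]; exact (hG0 v hv).2)
  have w2 := wflow (k := k) hP hI G' (Y := Y) (fun v hv => by
    rw [abs_of_nonneg (hG0' v hv).1]; exact (hG0' v hv).2)
  have hsum : ∑ e ∈ EdIn P k P I, (if c e.1 = c e.2 then 0 else y (c e.1) + y (c e.2)) ≤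
      ∑ e ∈ EdIn P k P I, ((- G e.2 - - G e.1) + (G' e.2 - G' e.1)) := by
    refine Finset.sum_le_sum fun e he => ?_
    have he' := mem_EdI.1 he
    have hm := mem_Ed.1 he'.1
    have hr := hrE e he
    have hne : e.1 ≠ e.2 := fst_ne_snd he'.1
    have hnr : ¬ r e.2 e.1 := fun h => lt_asymm hm.2.2.1 (hrx _ hm.2.1 _ hm.1 h)
    have a1 := hG _ hm.1 _ hm.2.1 hr hne hnr
    have a2 := hG' _ hm.2.1 _ hm.1 hr hne.symm hnr
    split_ifs with h
    · rw [if_pos h] at a1
      rw [if_pos h.symm] at a2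
      linarith
    · rw [if_neg h] at a1
      rw [if_neg (Ne.symm h)] at a2
      linarith
  refine hsum.trans ?_
  rw [Finset.sum_add_distrib]
  linarith

open Classical in
/-- **WSL**: the weighted number of boundary edges. -/
theorem wsl (hP : Good P) (hI : I.OrdConnected) {ι : Type*} (c : Pt → ι) (y : ι → ℝ)
    (hy : ∀ i, 0 ≤ y i) {Y : ℝ} (r : Pt → Pt → Prop)
    (hrE : ∀ e ∈ EdIn P k P I, r e.1 e.2) (hrx : ∀ u ∈ P, ∀ v ∈ P, r u v → u.1 < v.1)
    (htr : ∀ u ∈ P, ∀ v ∈ P, ∀ w ∈ P, r u v → r v w → r u w)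
    (hconv : ∀ u ∈ P, ∀ v ∈ P, ∀ w ∈ P, r u v → r v w → c u = c w → y (c u) ≠ 0 → c v = c u)
    (hch : ∀ C ⊆ P, IsCh r C → wt c y C ≤ Y) (A : Finset ι) :
    ∑ i ∈ A, y i * #(EdBd P k {v ∈ P | c v = i} I) ≤ 2 * Y * #(Tch P k P I) := by
  refine le_trans ?_ (wsl_edges (k := k) hP hI c y hy r hrE hrx htr hconv hch)
  have h1 : ∀ i ∈ A, y i * (#(EdBd P k {v ∈ P | c v = i} I) : ℝ) =
      ∑ e ∈ EdIn P k P I, (if (c e.1 = i ∧ c e.2 ≠ i) ∨ (c e.1 ≠ i ∧ c e.2 = i) then y i else 0) := by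
    intro i _
    rw [← Finset.sum_filter, Finset.sum_const, nsmul_eq_mul, mul_comm]
    congr 2
    congr 1
    ext ⟨p, q⟩
    unfold EdBd
    simp only [Finset.mem_filter]
    constructor
    · rintro ⟨h2, h3, h4⟩
      have hm := mem_Ed.1 h2
      refine ⟨mem_EdI.2 ⟨h2, h4⟩, ?_⟩
      rcases h3 with ⟨h5, h6⟩ | ⟨h5, h6⟩
      · exact Or.inl ⟨h5.2, fun h7 => h6 ⟨hm.2.1, h7⟩⟩
      · exact Or.inr ⟨fun h7 => h5 ⟨hm.1, h7⟩, h6.2⟩
    · rintro ⟨h2, h3⟩
      have h2' := mem_EdI.1 h2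
      have hm := mem_Ed.1 h2'.1
      refine ⟨h2'.1, ?_, h2'.2⟩
      rcases h3 with ⟨h5, h6⟩ | ⟨h5, h6⟩
      · exact Or.inl ⟨⟨hm.1, h5⟩, fun h7 => h6 h7.2⟩
      · exact Or.inr ⟨fun h7 => h5 h7.2, ⟨hm.2.1, h6⟩⟩
  rw [Finset.sum_congr rfl h1, Finset.sum_comm]
  refine Finset.sum_le_sum fun e _ => ?_
  by_cases h : c e.1 = c e.2
  · rw [if_pos h]
    refine le_of_eq (Finset.sum_eq_zero fun i _ => ?_)
    rw [if_neg]
    rintro (⟨h2, h3⟩ | ⟨h2, h3⟩)
    · exact h3 (h ▸ h2)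
    · exact h2 (h ▸ h3)
  · rw [if_neg h]
    calc ∑ i ∈ A, (if (c e.1 = i ∧ c e.2 ≠ i) ∨ (c e.1 ≠ i ∧ c e.2 = i) then y i else 0)
        ≤ ∑ i ∈ A, ((if c e.1 = i then y i else 0) + (if c e.2 = i then y i else 0)) := by
          refine Finset.sum_le_sum fun i _ => ?_
          have := hy i
          split_ifs <;> first | linarith | (exfalso; tauto)
      _ ≤ y (c e.1) + y (c e.2) := by
          rw [Finset.sum_add_distrib, Finset.sum_ite_eq, Finset.sum_ite_eq]
          have := hy (c e.1)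
          have := hy (c e.2)
          split_ifs <;> linarith

end Vale.Agent.P065.H649
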